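import Crest.Agent.R341.Det

/-!
Determinant inequalities for shifted block matrices.
-/

set_option autoImplicit false
set_option linter.unusedSectionVars false

open Matrix
open scoped ComplexOrder

namespace Crest.Agent.R341

/-- the shifted matrix `x + M` -/
def sh {n : Type*} [DecidableEq n] (x : ℝ) (M : Matrix n n ℂ) : Matrix n n ℂ :=
  (x : ℂ) • (1 : Matrix n n ℂ) + M

/-- the (real) determinant of `x + M` -/
noncomputable def dt {n : Type*} [Fintype n] [DecidableEq n] (M : Matrix n n ℂ) (x : ℝ) : ℝ :=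
  (det (sh x M)).re

variable {e f : Type*} [Fintype e] [Fintype f] [DecidableEq e] [DecidableEq f]

omit [Fintype e] in
theorem smul_one_posDef {x : ℝ} (hx : 0 < x) : ((x : ℂ) • (1 : Matrix e e ℂ)).PosDef :=
  PosDef.one.smul (by exact_mod_cast hx)

omit [Fintype e] in
theorem sh_posDef {x : ℝ} (hx : 0 < x) {M : Matrix e e ℂ} (hM : M.PosSemidef) :
    (sh x M).PosDef :=
  (smul_one_posDef hx).add_posSemidef hM

theorem dt_pos {x : ℝ} (hx : 0 < x) {M : Matrix e e ℂ} (hM : M.PosSemidef) : 0 < dt M x := by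
  simpa [dt] using (Complex.lt_def.1 (sh_posDef hx hM).det_pos).1

theorem ofReal_dt {x : ℝ} (hx : 0 < x) {M : Matrix e e ℂ} (hM : M.PosSemidef) :
    ((dt M x : ℝ) : ℂ) = det (sh x M) :=
  ofReal_re_of_nonneg (sh_posDef hx hM).det_pos.le

omit [Fintype e] [Fintype f] [DecidableEq e] [DecidableEq f] in
theorem psd_block₁ {A : Matrix e e ℂ} {B : Matrix e f ℂ} {B' : Matrix f e ℂ} {C : Matrix f f ℂ}
    (hM : (fromBlocks A B B' C).PosSemidef) : A.PosSemidef := by
  exact hM.submatrix Sum.inl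

omit [Fintype e] [Fintype f] [DecidableEq e] [DecidableEq f] in
theorem psd_block₂ {A : Matrix e e ℂ} {B : Matrix e f ℂ} {B' : Matrix f e ℂ} {C : Matrix f f ℂ}
    (hM : (fromBlocks A B B' C).PosSemidef) : C.PosSemidef := by
  exact hM.submatrix Sum.inr

omit [DecidableEq e] [DecidableEq f] in
theorem psd_fromBlocks_diag {P : Matrix e e ℂ} {Q : Matrix f f ℂ} (hP : P.PosSemidef)
    (hQ : Q.PosSemidef) : (fromBlocks P 0 0 Q).PosSemidef := by
  refine .of_dotProduct_mulVec_nonneg ?_ fun v => ?_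
  · have := IsHermitian.fromBlocks (B := (0 : Matrix e f ℂ)) (C := 0) hP.1 (by simp) hQ.1
    exact this
  · rw [← Sum.elim_comp_inl_inr v, fromBlocks_mulVec, Function.star_sumElim,
      sumElim_dotProduct_sumElim]
    simp only [Sum.elim_comp_inl, Sum.elim_comp_inr, zero_mulVec, add_zero, zero_add]
    exact add_nonneg (hP.dotProduct_mulVec_nonneg _) (hQ.dotProduct_mulVec_nonneg _)

theorem sh_fromBlocks (x : ℝ) (A : Matrix e e ℂ) (B : Matrix e f ℂ) (B' : Matrix f e ℂ)
    (C : Matrix f f ℂ) : sh x (fromBlocks A B B' C) = fromBlocks (sh x A) B B' (sh x C) := by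
  unfold sh
  rw [← fromBlocks_one, fromBlocks_smul, fromBlocks_add]
  simp

/-- Schur complement formula for the shifted determinant. -/
theorem dt_fromBlocks {x : ℝ} (hx : 0 < x) (A : Matrix e e ℂ) (B : Matrix e f ℂ)
    {C : Matrix f f ℂ} (hC : C.PosSemidef) :
    dt (fromBlocks A B Bᴴ C) x = dt C x * (det (sh x A - B * (sh x C)⁻¹ * Bᴴ)).re := by
  have hCx := sh_posDef hx hC
  let _ : Invertible (sh x C) := hCx.isUnit.invertible
  unfold dt
  rw [sh_fromBlocks, det_fromBlocks₂₂, invOf_eq_nonsing_inv, ← ofReal_dt hx hC]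
  simp

theorem schur_psd {x : ℝ} (hx : 0 < x) {A : Matrix e e ℂ} {B : Matrix e f ℂ}
    {C : Matrix f f ℂ} (hM : (fromBlocks A B Bᴴ C).PosSemidef) :
    (A - B * (sh x C)⁻¹ * Bᴴ).PosSemidef := by
  have hCx := sh_posDef hx (psd_block₂ hM)
  let _ : Invertible (sh x C) := hCx.isUnit.invertible
  rw [← PosDef.fromBlocks₂₂ A B hCx]
  have := hM.add (psd_fromBlocks_diag (PosSemidef.zero (n := e))
    (smul_one_posDef (e := f) hx).posSemidef)
  rw [fromBlocks_add] at this
  simpa [sh, add_comm] using this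

/-- Fischer's inequality. -/
theorem dt_fischer {x : ℝ} (hx : 0 < x) {A : Matrix e e ℂ} {B : Matrix e f ℂ}
    {C : Matrix f f ℂ} (hM : (fromBlocks A B Bᴴ C).PosSemidef) :
    dt (fromBlocks A B Bᴴ C) x ≤ dt A x * dt C x := by
  have hC := psd_block₂ hM
  rw [dt_fromBlocks hx A B hC, mul_comm]
  refine mul_le_mul_of_nonneg_right ?_ (dt_pos hx hC).le
  have h1 : (sh x (A - B * (sh x C)⁻¹ * Bᴴ)).PosDef := sh_posDef hx (schur_psd hx hM)
  have h2 : (B * (sh x C)⁻¹ * Bᴴ).PosSemidef :=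
    (sh_posDef hx hC).inv.posSemidef.mul_mul_conjTranspose_same B
  have := det_mono h1 h2
  have e1 : sh x (A - B * (sh x C)⁻¹ * Bᴴ) = sh x A - B * (sh x C)⁻¹ * Bᴴ := by
    simp only [sh]; abel
  rw [e1, sub_add_cancel] at this
  exact this

theorem aux_real {x y w r N : ℝ} (hr : 0 ≤ r) (hN : 0 ≤ N) (h : w ^ 2 ≤ r * N) :
    2 * x * y * w ≤ x ^ 2 * N + r * y ^ 2 := by
  rcases eq_or_lt_of_le hr with h0 | h0
  · have : w = 0 := by rw [← h0] at h; nlinarith [sq_nonneg w]
    rw [this, ← h0]; nlinarith [mul_nonneg (sq_nonneg x) hN]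
  · refine le_of_mul_le_mul_left ?_ h0
    nlinarith [sq_nonneg (x * w - r * y), mul_le_mul_of_nonneg_left h (sq_nonneg x)]

/-- The row weights. -/
noncomputable def rowW (a : e → ℝ) (B : Matrix e f ℂ) (k : e) : ℝ := (∑ j, ‖B k j‖ ^ 2) / a k

theorem schur_form_ge {x : ℝ} (hx : 0 < x) {a : e → ℝ} (ha : ∀ k, 0 ≤ a k) {B : Matrix e f ℂ}
    {C : Matrix f f ℂ} (hM : (fromBlocks (diagonal fun k => (a k : ℂ)) B Bᴴ C).PosSemidef)
    (k : e) (ξ : e → ℂ) :
    x * a k / (x + rowW a B k) * ‖ξ k‖ ^ 2 ≤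
      (star ξ ⬝ᵥ ((diagonal fun k => (a k : ℂ)) - B * (sh x C)⁻¹ * Bᴴ) *ᵥ ξ).re := by
  have hCx := sh_posDef hx (psd_block₂ hM)
  let _ : Invertible (sh x C) := hCx.isUnit.invertible
  set A : Matrix e e ℂ := diagonal fun k => (a k : ℂ) with hA
  set η : f → ℂ := -(((sh x C)⁻¹ * Bᴴ) *ᵥ ξ) with hη
  have h1 := schur_complement_eq₂₂ A B ξ η hCx.1
  rw [hη, add_neg_cancel, dotProduct_zero, zero_add, ← hη, ← dotProduct_mulVec,
    ← dotProduct_mulVec] at h1
  rw [← h1]
  have e1 : fromBlocks A B Bᴴ (sh x C) =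
      fromBlocks A B Bᴴ C + fromBlocks 0 0 0 ((x : ℂ) • (1 : Matrix f f ℂ)) := by
    rw [fromBlocks_add]; simp [sh, add_comm]
  set N : ℝ := ∑ j, ‖η j‖ ^ 2 with hN
  have hN0 : 0 ≤ N := Finset.sum_nonneg fun j _ => by positivity
  have e2 : (star (Sum.elim ξ η) ⬝ᵥ
      (fromBlocks 0 0 0 ((x : ℂ) • (1 : Matrix f f ℂ))) *ᵥ (Sum.elim ξ η)).re = x * N := by
    rw [fromBlocks_mulVec, Function.star_sumElim, sumElim_dotProduct_sumElim]
    simp only [Sum.elim_comp_inl, Sum.elim_comp_inr, zero_mulVec, add_zero, zero_add,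
      dotProduct_zero, smul_mulVec, one_mulVec, dotProduct_smul, smul_eq_mul,
      Complex.re_ofReal_mul]
    congr 1
    simp only [dotProduct, Pi.star_apply, Complex.re_sum, hN]
    refine Finset.sum_congr rfl fun j _ => ?_
    rw [RCLike.star_def, Complex.conj_mul', ← Complex.ofReal_pow, Complex.ofReal_re]
  rw [e1, add_mulVec, dotProduct_add, Complex.add_re, e2]
  set m := (star (Sum.elim ξ η) ⬝ᵥ (fromBlocks A B Bᴴ C) *ᵥ (Sum.elim ξ η)).re with hm
  have hm0 : 0 ≤ m := hM.re_dotProduct_nonneg _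
  have hr0 : 0 ≤ rowW a B k := div_nonneg (Finset.sum_nonneg fun j _ => by positivity) (ha k)
  rcases eq_or_lt_of_le (ha k) with h0 | h0
  · rw [← h0]; simp only [mul_zero, zero_div, zero_mul]; positivity
  have hcs := psd_cs hM (Pi.single (Sum.inl k) 1) (Sum.elim ξ η)
  rw [single_form, single_form_self, ← hm, fromBlocks_mulVec] at hcs
  simp only [Sum.elim_comp_inl, Sum.elim_comp_inr, Sum.elim_inl, Pi.add_apply, hA,
    mulVec_diagonal, fromBlocks_apply₁₁, diagonal_apply_eq, Complex.ofReal_re] at hcs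
  set y := ‖(a k : ℂ) * ξ k + (B *ᵥ η) k‖ with hy
  set w := ‖(B *ᵥ η) k‖ with hw
  have hw2 : w ^ 2 ≤ rowW a B k * (a k * N) := by
    have : w ≤ ∑ j, ‖B k j‖ * ‖η j‖ := by
      rw [hw]
      simp only [mulVec, dotProduct]
      exact (norm_sum_le _ _).trans (le_of_eq (Finset.sum_congr rfl fun j _ => norm_mul _ _))
    calc w ^ 2 ≤ (∑ j, ‖B k j‖ * ‖η j‖) ^ 2 := by gcongr
      _ ≤ (∑ j, ‖B k j‖ ^ 2) * N := Finset.sum_mul_sq_le_sq_mul_sq _ _ _
      _ = rowW a B k * (a k * N) := by unfold rowW; field_simp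
  have ht : a k * ‖ξ k‖ ≤ y + w := by
    have : (a k : ℂ) * ξ k = ((a k : ℂ) * ξ k + (B *ᵥ η) k) - (B *ᵥ η) k := by ring
    calc a k * ‖ξ k‖ = ‖(a k : ℂ) * ξ k‖ := by
          rw [norm_mul, Complex.norm_real, Real.norm_of_nonneg h0.le]
      _ ≤ y + w := by rw [this]; exact norm_sub_le _ _
  have h3 := aux_real (x := x) (y := y) hr0 (by positivity) hw2
  set r := rowW a B k
  have ht2 : (a k * ‖ξ k‖) ^ 2 ≤ (y + w) ^ 2 := by gcongr
  rw [div_mul_eq_mul_div, div_le_iff₀ (by positivity)]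
  refine le_of_mul_le_mul_left ?_ h0
  nlinarith [mul_le_mul_of_nonneg_left ht2 hx.le, mul_le_mul_of_nonneg_left hcs hx.le,
    mul_le_mul_of_nonneg_left hcs hr0, mul_le_mul_of_nonneg_left hw2 hx.le]

omit [DecidableEq f] in
theorem sum_rowW_le {a : e → ℝ} {B : Matrix e f ℂ}
    {C : Matrix f f ℂ} (hM : (fromBlocks (diagonal fun k => (a k : ℂ)) B Bᴴ C).PosSemidef) :
    ∑ k, rowW a B k ≤ C.trace.re := by
  classical
  unfold rowW
  simp only [Finset.sum_div]
  rw [Finset.sum_comm]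
  simp only [trace, diag_apply, Complex.re_sum]
  refine Finset.sum_le_sum fun j _ => ?_
  have h := hM.re_dotProduct_nonneg (Sum.elim (fun k => -(B k j / a k)) (Pi.single j 1))
  rw [fromBlocks_mulVec, Function.star_sumElim, sumElim_dotProduct_sumElim] at h
  simp only [Sum.elim_comp_inl, Sum.elim_comp_inr, dotProduct_add] at h
  rw [single_form_self, ← Pi.single_star, star_one, single_dotProduct, one_mul] at h
  have t1 : star (fun k => -(B k j / a k)) ⬝ᵥ (diagonal fun k => (a k : ℂ)) *ᵥ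
      (fun k => -(B k j / a k)) = ((∑ k, ‖B k j‖ ^ 2 / a k : ℝ) : ℂ) := by
    simp only [dotProduct, mulVec_diagonal, Pi.star_apply, Complex.ofReal_sum]
    refine Finset.sum_congr rfl fun k _ => ?_
    by_cases h0 : a k = 0
    · simp [h0]
    · have : (a k : ℂ) ≠ 0 := by exact_mod_cast h0
      simp only [star_neg, star_div₀, RCLike.star_def, Complex.conj_ofReal, Complex.ofReal_div,
        Complex.ofReal_pow, ← Complex.conj_mul']
      field_simp
  have t2 : star (fun k => -(B k j / a k)) ⬝ᵥ B *ᵥ (Pi.single j 1) =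
      -((∑ k, ‖B k j‖ ^ 2 / a k : ℝ) : ℂ) := by
    simp only [dotProduct, mulVec_single_one, col_apply, Pi.star_apply, Complex.ofReal_sum,
      ← Finset.sum_neg_distrib]
    refine Finset.sum_congr rfl fun k _ => ?_
    simp only [star_neg, star_div₀, RCLike.star_def, Complex.conj_ofReal, Complex.ofReal_div,
      Complex.ofReal_pow, ← Complex.conj_mul']
    ring
  have t3 : (Bᴴ *ᵥ fun k => -(B k j / a k)) j = -((∑ k, ‖B k j‖ ^ 2 / a k : ℝ) : ℂ) := by
    simp only [mulVec, dotProduct, conjTranspose_apply, Complex.ofReal_sum,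
      ← Finset.sum_neg_distrib]
    refine Finset.sum_congr rfl fun k _ => ?_
    simp only [RCLike.star_def, Complex.ofReal_div, Complex.ofReal_pow, ← Complex.conj_mul']
    ring
  rw [t1, t2, t3] at h
  simp only [RCLike.re_to_complex, Complex.add_re, Complex.ofReal_re, Complex.neg_re] at h
  linarith

/-- The three-block determinant inequality, with a diagonal upper-left block. -/
theorem dt_three {x : ℝ} (hx : 0 < x) {a : e → ℝ} (ha : ∀ k, 0 ≤ a k) {B : Matrix e f ℂ}
    {C : Matrix f f ℂ} (hM : (fromBlocks (diagonal fun k => (a k : ℂ)) B Bᴴ C).PosSemidef)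
    {P : Matrix e e ℂ} (hP : P.PosSemidef) :
    dt P x * dt C x * ∏ k, (1 + x * a k / ((x + (P k k).re) * (x + rowW a B k))) ≤
      dt (fromBlocks ((diagonal fun k => (a k : ℂ)) + P) B Bᴴ C) x := by
  have hC := psd_block₂ hM
  rw [dt_fromBlocks hx _ B hC]
  have h := det_add_ge_univ (sh_posDef hx hP) (schur_psd hx hM)
    (fun k => x * a k / (x + rowW a B k))
    (fun k => div_nonneg (mul_nonneg hx.le (ha k)) (add_nonneg hx.le
      (div_nonneg (Finset.sum_nonneg fun j _ => by positivity) (ha k))))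
    (schur_form_ge hx ha hM)
  have e1 : sh x P + ((diagonal fun k => (a k : ℂ)) - B * (sh x C)⁻¹ * Bᴴ) =
      sh x ((diagonal fun k => (a k : ℂ)) + P) - B * (sh x C)⁻¹ * Bᴴ := by
    simp only [sh]; abel
  rw [e1] at h
  have e2 : ∏ k, (1 + x * a k / (x + rowW a B k) / (sh x P k k).re) =
      ∏ k, (1 + x * a k / ((x + (P k k).re) * (x + rowW a B k))) := by
    refine Finset.prod_congr rfl fun k _ => ?_
    rw [div_div, mul_comm (x + rowW a B k)]
    simp [sh]
  rw [e2] at h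
  calc dt P x * dt C x * ∏ k, (1 + x * a k / ((x + (P k k).re) * (x + rowW a B k)))
      = dt C x * (dt P x * ∏ k, (1 + x * a k / ((x + (P k k).re) * (x + rowW a B k)))) := by ring
    _ ≤ _ := mul_le_mul_of_nonneg_left h (dt_pos hx hC).le

end Crest.Agent.R341
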