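import Crest.Agent.R341.Key

/-!
Channel bookkeeping: blocks, ensembles, and the upper bound for the Holevo information of the
amplitude-damping channel tensored with an arbitrary channel.
-/

set_option autoImplicit false
set_option linter.unusedSectionVars false

open Matrix Real Crest.Quantum Crest.MathPhysics.AmpDamp
open scoped ComplexOrder Kronecker

namespace Crest.Agent.R341

variable {d e : Type*} [Fintype d] [DecidableEq d] [Fintype e] [DecidableEq e]

/-- `e ⊕ e ≃ Bool × e` -/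
def boolEq (e : Type*) : e ⊕ e ≃ Bool × e := (Equiv.boolProdEquivSum e).symm

theorem submatrix_boolEq (M : Matrix (Bool × e) (Bool × e) ℂ) :
    M.submatrix (boolEq e) (boolEq e) =
      fromBlocks (block M false false) (block M false true) (block M true false)
        (block M true true) := by
  ext (i | i) (j | j) <;> rfl

theorem block_conjTranspose {M : Matrix (Bool × e) (Bool × e) ℂ} (hM : M.IsHermitian) :
    block M true false = (block M false true)ᴴ := by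
  ext i j
  simp only [block, of_apply, conjTranspose_apply]
  exact (hM.apply _ _).symm

theorem psd_blocks {M : Matrix (Bool × e) (Bool × e) ℂ} (hM : M.PosSemidef) :
    (fromBlocks (block M false false) (block M false true) (block M false true)ᴴ
        (block M true true)).PosSemidef := by
  rw [← block_conjTranspose hM.1, ← submatrix_boolEq]
  exact hM.submatrix _

theorem trace_blocks (M : Matrix (Bool × e) (Bool × e) ℂ) :
    M.trace = (block M false false).trace + (block M true true).trace := by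
  rw [← trace_submatrix_equiv M (boolEq e), submatrix_boolEq, trace_fromBlocks']

theorem block_psd {M : Matrix (Bool × e) (Bool × e) ℂ} (hM : M.PosSemidef) (s : Bool) :
    (block M s s).PosSemidef :=
  hM.submatrix fun i => (s, i)

theorem chan_psd2 {Ψ : Matrix d d ℂ → Matrix e e ℂ} (hΨ : IsChannel Ψ)
    {ρ : Matrix (Bool × d) (Bool × d) ℂ} (hρ : ρ.PosSemidef) : (blockwise Ψ ρ).PosSemidef := by
  have h := hΨ.2.1 2 (ρ.submatrix (Prod.map finTwoEquiv id) (Prod.map finTwoEquiv id))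
    (hρ.submatrix _)
  have h2 := h.submatrix (Prod.map finTwoEquiv.symm (id : e → e))
  convert h2 using 1
  ext ⟨s, i⟩ ⟨t, j⟩
  simp only [blockwise, of_apply, submatrix_apply, Prod.map_fst, Prod.map_snd, id]
  congr 1
  ext k l
  simp [block]

theorem chan_psd {Ψ : Matrix d d ℂ → Matrix e e ℂ} (hΨ : IsChannel Ψ)
    {ρ : Matrix d d ℂ} (hρ : ρ.PosSemidef) : (Ψ ρ).PosSemidef := by
  have h := hΨ.2.1 1 (ρ.submatrix Prod.snd Prod.snd) (hρ.submatrix _)
  exact h.submatrix fun i => ((0 : Fin 1), i)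

theorem chan_density {Ψ : Matrix d d ℂ → Matrix e e ℂ} (hΨ : IsChannel Ψ)
    {ρ : Matrix d d ℂ} (hρ : IsDensity ρ) : IsDensity (Ψ ρ) :=
  ⟨chan_psd hΨ hρ.1, (hΨ.2.2 ρ).trans hρ.2⟩

theorem tensor_submatrix (γ ν : ℝ) {Ψ : Matrix d d ℂ → Matrix e e ℂ} (hΨ : IsChannel Ψ)
    {ρ : Matrix (Bool × d) (Bool × d) ℂ} (hρ : ρ.PosSemidef) :
    (qubitTensor (gadMap γ ν) Ψ ρ).submatrix (boolEq e) (boolEq e) =
      gadOut γ ν (Ψ (block ρ false false)) (Ψ (block ρ false true)) (Ψ (block ρ true true)) := by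
  have h : Ψ (block ρ true false) = (Ψ (block ρ false true))ᴴ :=
    block_conjTranspose (chan_psd2 hΨ hρ).1
  rw [gadOut, outM, ← h]
  ext (i | i) (j | j) <;>
    simp [boolEq, qubitTensor, qubitCoeff, gadMap, Matrix.single] <;> ring

theorem psd_out_blocks {Ψ : Matrix d d ℂ → Matrix e e ℂ} (hΨ : IsChannel Ψ)
    {ρ : Matrix (Bool × d) (Bool × d) ℂ} (hρ : ρ.PosSemidef) :
    (fromBlocks (Ψ (block ρ false false)) (Ψ (block ρ false true)) (Ψ (block ρ false true))ᴴ
      (Ψ (block ρ true true))).PosSemidef :=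
  psd_blocks (chan_psd2 hΨ hρ)

theorem tensor_psd {γ ν : ℝ} (hγ : γ ∈ Set.Icc (0 : ℝ) 1) (hν : ν ∈ Set.Icc (0 : ℝ) 1)
    {Ψ : Matrix d d ℂ → Matrix e e ℂ} (hΨ : IsChannel Ψ)
    {ρ : Matrix (Bool × d) (Bool × d) ℂ} (hρ : ρ.PosSemidef) :
    (qubitTensor (gadMap γ ν) Ψ ρ).PosSemidef := by
  rw [← posSemidef_submatrix_equiv (boolEq e), tensor_submatrix γ ν hΨ hρ]
  exact (gadOut_key₀ hγ hν (psd_out_blocks hΨ hρ)).1

theorem tensor_block_ff (γ ν : ℝ) (Ψ : Matrix d d ℂ → Matrix e e ℂ)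
    (ρ : Matrix (Bool × d) (Bool × d) ℂ) :
    block (qubitTensor (gadMap γ ν) Ψ ρ) false false =
      ((1 - γ * ν : ℝ) : ℂ) • Ψ (block ρ false false) +
        ((γ * (1 - ν) : ℝ) : ℂ) • Ψ (block ρ true true) := by
  ext i j
  simp [block, qubitTensor, qubitCoeff, gadMap, Matrix.single]
  ring

theorem tensor_block_tt (γ ν : ℝ) (Ψ : Matrix d d ℂ → Matrix e e ℂ)
    (ρ : Matrix (Bool × d) (Bool × d) ℂ) :
    block (qubitTensor (gadMap γ ν) Ψ ρ) true true =
      ((γ * ν : ℝ) : ℂ) • Ψ (block ρ false false) +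
        ((1 - γ + γ * ν : ℝ) : ℂ) • Ψ (block ρ true true) := by
  ext i j
  simp [block, qubitTensor, qubitCoeff, gadMap, Matrix.single]
  ring

/-- excited population of the qubit -/
noncomputable def pop (ρ : Matrix (Bool × d) (Bool × d) ℂ) : ℝ := (block ρ true true).trace.re

theorem pop_ff {ρ : Matrix (Bool × d) (Bool × d) ℂ} (hρ : IsDensity ρ) :
    (block ρ false false).trace.re = 1 - pop ρ := by
  have := congrArg Complex.re (trace_blocks ρ)
  rw [hρ.2, Complex.add_re, Complex.one_re] at this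
  unfold pop; linarith

theorem pop_mem {ρ : Matrix (Bool × d) (Bool × d) ℂ} (hρ : IsDensity ρ) :
    pop ρ ∈ Set.Icc (0 : ℝ) 1 := by
  refine ⟨re_nonneg_of_nonneg (block_psd hρ.1 true).trace_nonneg, ?_⟩
  have := re_nonneg_of_nonneg (block_psd hρ.1 false).trace_nonneg
  rw [pop_ff hρ] at this
  linarith

theorem tensor_trace (γ ν : ℝ) {Ψ : Matrix d d ℂ → Matrix e e ℂ} (hΨ : IsChannel Ψ)
    (ρ : Matrix (Bool × d) (Bool × d) ℂ) :
    (qubitTensor (gadMap γ ν) Ψ ρ).trace = ρ.trace := by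
  rw [trace_blocks, tensor_block_ff, tensor_block_tt, trace_blocks ρ]
  simp only [trace_add, trace_smul, hΨ.2.2 _, smul_eq_mul]
  push_cast; ring

theorem hS_density {M : Matrix e e ℂ} (hM : M.trace = 1) : hS M = vnEntropy M := by
  simp [hS, hM]

/-- The key inequality. -/
theorem tensor_key {γ ν : ℝ} (hγ : γ ∈ Set.Icc (0 : ℝ) 1) (hν : ν ∈ Set.Icc (0 : ℝ) 1)
    {Ψ : Matrix d d ℂ → Matrix e e ℂ} (hΨ : IsChannel Ψ)
    {ρ : Matrix (Bool × d) (Bool × d) ℂ} (hρ : IsDensity ρ) :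
    s2 1 (gv γ ν (pop ρ)) + hS (Ψ (block ρ false false)) + hS (Ψ (block ρ true true)) ≤
      vnEntropy (qubitTensor (gadMap γ ν) Ψ ρ) := by
  have h := gadOut_key hγ hν (psd_out_blocks hΨ hρ.1) (p := pop ρ)
    (by rw [hΨ.2.2, pop_ff hρ]) (by rw [hΨ.2.2]; rfl)
  rw [← tensor_submatrix γ ν hΨ hρ.1, hS_submatrix_equiv (tensor_psd hγ hν hΨ hρ.1),
    hS_density ((tensor_trace γ ν hΨ ρ).trans hρ.2)] at h
  exact h

/-- Subadditivity for a qubit and a second system. -/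
theorem vn_le_marginal {X : Matrix (Bool × e) (Bool × e) ℂ} (hX : IsDensity X) :
    vnEntropy X ≤ binEntropy (pop X) + vnEntropy (block X false false + block X true true) := by
  have h1 := vn_pinch (psd_blocks hX.1)
  rw [← block_conjTranspose hX.1.1, ← submatrix_boolEq, vn_submatrix_equiv hX.1] at h1
  have h2 := hS_add (block_psd hX.1 false) (block_psd hX.1 true)
  rw [hS_density (M := block X false false + block X true true)
    (by rw [trace_add, ← trace_blocks, hX.2])] at h2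
  unfold hS at h2
  rw [pop_ff hX] at h2
  rw [binEntropy_eq_negMulLog_add_negMulLog_one_sub]
  unfold pop at *
  linarith

/-- normalisation of a positive matrix -/
noncomputable def nrm [Nonempty d] (A : Matrix d d ℂ) : Matrix d d ℂ :=
  if A.trace.re = 0 then Matrix.single (Classical.arbitrary d) (Classical.arbitrary d) 1
  else ((A.trace.re⁻¹ : ℝ) : ℂ) • A

theorem nrm_density [Nonempty d] {A : Matrix d d ℂ} (hA : A.PosSemidef) : IsDensity (nrm A) := by
  unfold nrm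
  split_ifs with h
  · refine ⟨?_, by simp⟩
    rw [← diagonal_single]
    refine PosSemidef.diagonal fun i => ?_
    by_cases hi : i = Classical.arbitrary d
    · subst hi; simp
    · simp [hi]
  · have h0 := re_nonneg_of_nonneg hA.trace_nonneg
    refine ⟨psd_smul hA (by positivity), ?_⟩
    rw [trace_smul, ← ofReal_re_of_nonneg hA.trace_nonneg, smul_eq_mul]
    simp only [Complex.ofReal_re]
    norm_cast
    exact inv_mul_cancel₀ h

theorem smul_nrm [Nonempty d] {A : Matrix d d ℂ} (hA : A.PosSemidef) :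
    (A.trace.re : ℂ) • nrm A = A := by
  unfold nrm
  split_ifs with h
  · have : A = 0 := hA.trace_eq_zero_iff.1 (by rw [← ofReal_re_of_nonneg hA.trace_nonneg, h]; simp)
    rw [h, this]; simp
  · rw [smul_smul, ← Complex.ofReal_mul, mul_inv_cancel₀ h]; simp

theorem chan_nrm [Nonempty d] {Ψ : Matrix d d ℂ → Matrix e e ℂ} (hΨ : IsChannel Ψ)
    {A : Matrix d d ℂ} (hA : A.PosSemidef) : Ψ A = (A.trace.re : ℂ) • Ψ (nrm A) := by
  rw [← hΨ.1.map_smul, smul_nrm hA]

theorem hS_chan_nrm [Nonempty d] {Ψ : Matrix d d ℂ → Matrix e e ℂ} (hΨ : IsChannel Ψ)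
    {A : Matrix d d ℂ} (hA : A.PosSemidef) :
    hS (Ψ A) = A.trace.re * vnEntropy (Ψ (nrm A)) := by
  have h := chan_density hΨ (nrm_density hA)
  rw [chan_nrm hΨ hA, hS_smul h.1 (re_nonneg_of_nonneg hA.trace_nonneg), hS_density h.2]

/-- ensembles indexed by an arbitrary finite type -/
def IsEns {ι : Type*} [Fintype ι] (q : ι → ℝ) (ρ : ι → Matrix d d ℂ) : Prop :=
  (∀ a, 0 ≤ q a) ∧ ∑ a, q a = 1 ∧ ∀ a, IsDensity (ρ a)

/-- Holevo information of an ensemble indexed by an arbitrary finite type -/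
noncomputable def chi {ι : Type*} [Fintype ι] (Φ : Matrix d d ℂ → Matrix e e ℂ) (q : ι → ℝ)
    (ρ : ι → Matrix d d ℂ) : ℝ :=
  vnEntropy (∑ a, (q a : ℂ) • Φ (ρ a)) - ∑ a, q a * vnEntropy (Φ (ρ a))

theorem exists_fin {ι : Type*} [Fintype ι] {q : ι → ℝ} {ρ : ι → Matrix d d ℂ} (h : IsEns q ρ)
    (Φ : Matrix d d ℂ → Matrix e e ℂ) :
    ∃ (m : ℕ) (q' : Fin m → ℝ) (ρ' : Fin m → Matrix d d ℂ), IsEnsemble q' ρ' ∧
      holevoInfo Φ q' ρ' = chi Φ q ρ := by
  let ε := (Fintype.equivFin ι).symm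
  refine ⟨Fintype.card ι, q ∘ ε, ρ ∘ ε, ⟨fun a => h.1 _, ?_, fun a => h.2.2 _⟩, ?_⟩
  · rw [← h.2.1]; exact ε.sum_comp q
  · unfold holevoInfo chi
    rw [← ε.sum_comp fun a => (q a : ℂ) • Φ (ρ a), ← ε.sum_comp fun a => q a * vnEntropy (Φ (ρ a))]
    rfl

theorem avg_density {ι : Type*} [Fintype ι] {q : ι → ℝ} {X : ι → Matrix e e ℂ}
    (h : IsEns q X) : IsDensity (∑ a, (q a : ℂ) • X a) := by
  refine ⟨posSemidef_sum _ fun a _ => psd_smul (h.2.2 a).1 (h.1 a), ?_⟩
  rw [trace_sum]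
  simp only [trace_smul, (h.2.2 _).2, smul_eq_mul, mul_one]
  exact_mod_cast h.2.1

theorem gv_le {γ ν p : ℝ} (hγ : γ ∈ Set.Icc (0 : ℝ) 1) (hp : p ∈ Set.Icc (0 : ℝ) 1) :
    4 * gv γ ν p ≤ 1 := by
  obtain ⟨g0, g1⟩ := hγ
  obtain ⟨p0, p1⟩ := hp
  have h : 0 ≤ (1 - γ) * (p * (1 - p)) := mul_nonneg (by linarith) (mul_nonneg p0 (by linarith))
  unfold gv
  nlinarith [sq_nonneg (1 - 2 * ((1 - γ) * p + γ * ν))]

theorem gadRate_eq (γ ν p : ℝ) :
    gadRate γ ν p = binEntropy ((1 - γ) * p + γ * ν) - s2 1 (gv γ ν p) := by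
  rw [s2_one]; rfl

/-- Upper bound for the Holevo information of the product channel. -/
theorem chi_tensor_le [Nonempty d] {γ ν : ℝ} (hγ : γ ∈ Set.Icc (0 : ℝ) 1)
    (hν : ν ∈ Set.Icc (0 : ℝ) 1) {Ψ : Matrix d d ℂ → Matrix e e ℂ} (hΨ : IsChannel Ψ)
    {ι : Type*} [Fintype ι] {q : ι → ℝ} {ρ : ι → Matrix (Bool × d) (Bool × d) ℂ}
    (h : IsEns q ρ) :
    ∃ p ∈ Set.Icc (0 : ℝ) 1, ∃ (q₂ : ι × Bool → ℝ) (ρ₂ : ι × Bool → Matrix d d ℂ), IsEns q₂ ρ₂ ∧
      chi (qubitTensor (gadMap γ ν) Ψ) q ρ ≤ gadRate γ ν p + chi Ψ q₂ ρ₂ := by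
  obtain ⟨hq, hq1, hρ⟩ := h
  refine ⟨∑ a, q a * pop (ρ a), ?_, fun x => q x.1 * (block (ρ x.1) x.2 x.2).trace.re,
    fun x => nrm (block (ρ x.1) x.2 x.2), ⟨fun x => ?_, ?_, fun x => ?_⟩, ?_⟩
  · exact (convex_Icc (0 : ℝ) 1).sum_mem (fun a _ => hq a) hq1 fun a _ => pop_mem (hρ a)
  · exact mul_nonneg (hq _) (re_nonneg_of_nonneg (block_psd (hρ _).1 _).trace_nonneg)
  · rw [← hq1, Fintype.sum_prod_type]
    refine Finset.sum_congr rfl fun a _ => ?_
    rw [Fintype.sum_bool, pop_ff (hρ a)]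
    unfold pop; ring
  · exact nrm_density (block_psd (hρ _).1 _)
  have hX : IsEns q fun a => qubitTensor (gadMap γ ν) Ψ (ρ a) :=
    ⟨hq, hq1, fun a => ⟨tensor_psd hγ hν hΨ (hρ a).1, (tensor_trace γ ν hΨ _).trans (hρ a).2⟩⟩
  have h1 := vn_le_marginal (avg_density hX)
  have hblock : ∀ s, block (∑ a, (q a : ℂ) • qubitTensor (gadMap γ ν) Ψ (ρ a)) s s =
      ∑ a, (q a : ℂ) • block (qubitTensor (gadMap γ ν) Ψ (ρ a)) s s := by
    intro s
    ext i j
    simp [block, Matrix.sum_apply]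
  have e1 : pop (∑ a, (q a : ℂ) • qubitTensor (gadMap γ ν) Ψ (ρ a)) =
      (1 - γ) * (∑ a, q a * pop (ρ a)) + γ * ν := by
    have : (1 - γ) * (∑ a, q a * pop (ρ a)) + γ * ν =
        ∑ a, q a * (γ * ν * (1 - pop (ρ a)) + (1 - γ + γ * ν) * pop (ρ a)) := by
      have : γ * ν = ∑ a, γ * ν * q a := by rw [← Finset.mul_sum, hq1, mul_one]
      conv_lhs => rw [this, Finset.mul_sum, ← Finset.sum_add_distrib]
      exact Finset.sum_congr rfl fun a _ => by ring
    rw [this, pop, hblock, trace_sum, Complex.re_sum]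
    refine Finset.sum_congr rfl fun a _ => ?_
    rw [trace_smul_re, tensor_block_tt, trace_add, Complex.add_re, trace_smul_re, trace_smul_re,
      hΨ.2.2, hΨ.2.2, pop_ff (hρ a)]
    rfl
  have e2 : block (∑ a, (q a : ℂ) • qubitTensor (gadMap γ ν) Ψ (ρ a)) false false +
      block (∑ a, (q a : ℂ) • qubitTensor (gadMap γ ν) Ψ (ρ a)) true true =
      ∑ x : ι × Bool, ((q x.1 * (block (ρ x.1) x.2 x.2).trace.re : ℝ) : ℂ) •
        Ψ (nrm (block (ρ x.1) x.2 x.2)) := by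
    rw [hblock, hblock, ← Finset.sum_add_distrib, Fintype.sum_prod_type]
    refine Finset.sum_congr rfl fun a _ => ?_
    rw [Fintype.sum_bool, tensor_block_ff, tensor_block_tt]
    simp only [Complex.ofReal_mul (q a), mul_smul]
    rw [← chan_nrm hΨ (block_psd (hρ a).1 true), ← chan_nrm hΨ (block_psd (hρ a).1 false)]
    push_cast; module
  rw [e1, e2] at h1
  have h2 : ∑ a, q a * (s2 1 (gv γ ν (pop (ρ a))) + hS (Ψ (block (ρ a) false false)) +
      hS (Ψ (block (ρ a) true true))) ≤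
      ∑ a, q a * vnEntropy (qubitTensor (gadMap γ ν) Ψ (ρ a)) :=
    Finset.sum_le_sum fun a _ => mul_le_mul_of_nonneg_left (tensor_key hγ hν hΨ (hρ a)) (hq a)
  have e3 : ∑ a, q a * (s2 1 (gv γ ν (pop (ρ a))) + hS (Ψ (block (ρ a) false false)) +
      hS (Ψ (block (ρ a) true true))) = ∑ a, q a * s2 1 (gv γ ν (pop (ρ a))) +
      ∑ x : ι × Bool, q x.1 * (block (ρ x.1) x.2 x.2).trace.re *
        vnEntropy (Ψ (nrm (block (ρ x.1) x.2 x.2))) := by
    rw [Fintype.sum_prod_type, ← Finset.sum_add_distrib]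
    refine Finset.sum_congr rfl fun a _ => ?_
    rw [Fintype.sum_bool, hS_chan_nrm hΨ (block_psd (hρ a).1 true),
      hS_chan_nrm hΨ (block_psd (hρ a).1 false)]
    ring
  have h3 := s2_jensen (u := fun a => pop (ρ a) - ν) hq hq1 (α := γ * ν * (1 - ν))
    (β := γ * (1 - γ)) (mul_nonneg (mul_nonneg hγ.1 hν.1) (by linarith [hν.2]))
    (mul_nonneg hγ.1 (by linarith [hγ.2])) (fun a => gv_le hγ (pop_mem (hρ a)))
  have e4 : ∑ a, q a * (pop (ρ a) - ν) = ∑ a, q a * pop (ρ a) - ν := by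
    simp only [mul_sub, Finset.sum_sub_distrib, ← Finset.sum_mul, hq1, one_mul]
  rw [e4] at h3
  rw [gadRate_eq]
  unfold chi
  unfold gv at *
  linarith

end Crest.Agent.R341
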