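import Crest.Agent.R341.Rep

/-!
Convexity of the Wootters function `c ↦ h ((1 + √(1 - c²)) / 2)`.
-/

set_option autoImplicit false

open Real Set

namespace Crest.Agent.R341

/-- Wootters' function -/
noncomputable def woo (c : ℝ) : ℝ := binEntropy ((1 + √(1 - c ^ 2)) / 2)

/-- its derivative -/
noncomputable def wooD (c : ℝ) : ℝ :=
  c * (log (1 + √(1 - c ^ 2)) - log (1 - √(1 - c ^ 2))) / (2 * √(1 - c ^ 2))

theorem sqrt_facts {c : ℝ} (hc : c ∈ Ioo (0 : ℝ) 1) :
    0 < √(1 - c ^ 2) ∧ √(1 - c ^ 2) < 1 ∧ √(1 - c ^ 2) ^ 2 = 1 - c ^ 2 := by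
  obtain ⟨h0, h1⟩ := hc
  have : 0 < 1 - c ^ 2 := by nlinarith
  refine ⟨sqrt_pos.2 this, ?_, sq_sqrt this.le⟩
  rw [sqrt_lt' one_pos]; nlinarith

theorem hasDerivAt_sqrt_one_sub {c : ℝ} (hc : c ∈ Ioo (0 : ℝ) 1) :
    HasDerivAt (fun c : ℝ => √(1 - c ^ 2)) (-c / √(1 - c ^ 2)) c := by
  obtain ⟨h0, h1, h2⟩ := sqrt_facts hc
  have : (1 - c ^ 2) ≠ 0 := by rw [← h2]; positivity
  have h := ((hasDerivAt_pow 2 c).const_sub 1).sqrt this
  refine h.congr_deriv ?_
  field_simp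
  norm_num

theorem hasDerivAt_woo {c : ℝ} (hc : c ∈ Ioo (0 : ℝ) 1) : HasDerivAt woo (wooD c) c := by
  obtain ⟨h0, h1, h2⟩ := sqrt_facts hc
  have hu := ((hasDerivAt_sqrt_one_sub hc).const_add 1).div_const 2
  have hb := hasDerivAt_binEntropy (p := (1 + √(1 - c ^ 2)) / 2) (by positivity) (by linarith)
  refine (hb.comp c hu).congr_deriv ?_
  unfold wooD
  rw [show 1 - (1 + √(1 - c ^ 2)) / 2 = (1 - √(1 - c ^ 2)) / 2 by ring,
    log_div (by linarith) (by norm_num), log_div (by linarith) (by norm_num)]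
  field_simp
  ring

theorem two_mul_le_log {u : ℝ} (h0 : 0 ≤ u) (h1 : u < 1) : 2 * u ≤ log (1 + u) - log (1 - u) := by
  have h := le_log_one_add_of_nonneg (x := 2 * u / (1 - u)) (div_nonneg (by positivity) (by linarith))
  have hne : 1 - u ≠ 0 := by linarith
  have e1 : 1 + 2 * u / (1 - u) = (1 + u) / (1 - u) := by field_simp; ring
  have e2 : 2 * (2 * u / (1 - u)) / (2 * u / (1 - u) + 2) = 2 * u := by
    field_simp; ring
  rw [e1, e2, log_div (by linarith) hne] at h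
  exact h

theorem hasDerivAt_wooD {c : ℝ} (hc : c ∈ Ioo (0 : ℝ) 1) :
    HasDerivAt wooD (((log (1 + √(1 - c ^ 2)) - log (1 - √(1 - c ^ 2))) - 2 * √(1 - c ^ 2)) /
      (2 * √(1 - c ^ 2) ^ 3)) c := by
  obtain ⟨h0, h1, h2⟩ := sqrt_facts hc
  have hu := hasDerivAt_sqrt_one_sub hc
  have l1 := (hu.const_add 1).log (by linarith)
  have l2 := (hu.const_sub 1).log (by linarith)
  have h := ((hasDerivAt_id' c).fun_mul (l1.fun_sub l2)).fun_div (hu.const_mul 2) (by positivity)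
  refine h.congr_deriv ?_
  set u := √(1 - c ^ 2)
  have hne : 1 - u ≠ 0 := by linarith
  have hc2 : c ^ 2 = 1 - u ^ 2 := by linarith
  set L := log (1 + u) - log (1 - u)
  field_simp
  rw [hc2]
  ring

theorem wooD_nonneg {c : ℝ} (hc : c ∈ Ioo (0 : ℝ) 1) : 0 ≤ wooD c := by
  obtain ⟨h0, h1, h2⟩ := sqrt_facts hc
  have := two_mul_le_log h0.le h1
  unfold wooD
  exact div_nonneg (mul_nonneg hc.1.le (by linarith)) (by positivity)

theorem woo_continuous : Continuous woo := by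
  unfold woo; fun_prop

theorem woo_monotoneOn : MonotoneOn woo (Icc 0 1) := by
  refine monotoneOn_of_deriv_nonneg (convex_Icc 0 1) woo_continuous.continuousOn ?_ ?_
  · rw [interior_Icc]
    exact fun c hc => (hasDerivAt_woo hc).differentiableAt.differentiableWithinAt
  · rw [interior_Icc]
    exact fun c hc => by rw [(hasDerivAt_woo hc).deriv]; exact wooD_nonneg hc

theorem wooD_monotoneOn : MonotoneOn wooD (Ioo 0 1) := by
  refine monotoneOn_of_deriv_nonneg (convex_Ioo 0 1)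
    (fun c hc => (hasDerivAt_wooD hc).continuousAt.continuousWithinAt) ?_ ?_
  · rw [interior_Ioo]
    exact fun c hc => (hasDerivAt_wooD hc).differentiableAt.differentiableWithinAt
  · rw [interior_Ioo]
    intro c hc
    obtain ⟨h0, h1, h2⟩ := sqrt_facts hc
    have := two_mul_le_log h0.le h1
    rw [(hasDerivAt_wooD hc).deriv]
    exact div_nonneg (by linarith) (by positivity)

theorem woo_convexOn : ConvexOn ℝ (Icc 0 1) woo := by
  refine MonotoneOn.convexOn_of_deriv (convex_Icc 0 1) woo_continuous.continuousOn ?_ ?_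
  · rw [interior_Icc]
    exact fun c hc => (hasDerivAt_woo hc).differentiableAt.differentiableWithinAt
  · rw [interior_Icc]
    intro a ha b hb hab
    rw [(hasDerivAt_woo ha).deriv, (hasDerivAt_woo hb).deriv]
    exact wooD_monotoneOn ha hb hab

theorem s2_one_eq_woo {v : ℝ} (hv : 0 ≤ v) : s2 1 v = woo (2 * √v) := by
  rw [s2_one, woo, mul_pow, sq_sqrt hv]; norm_num

/-- Jensen's inequality for `u ↦ s2 1 (α + β u²)`. -/
theorem s2_jensen {ι : Type*} [Fintype ι] {q u : ι → ℝ} (hq : ∀ a, 0 ≤ q a) (hq1 : ∑ a, q a = 1)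
    {α β : ℝ} (hα : 0 ≤ α) (hβ : 0 ≤ β) (hu : ∀ a, 4 * (α + β * u a ^ 2) ≤ 1) :
    s2 1 (α + β * (∑ a, q a * u a) ^ 2) ≤ ∑ a, q a * s2 1 (α + β * u a ^ 2) := by
  set u₀ := ∑ a, q a * u a with hu₀
  have hmem : ∀ a, 2 * √(α + β * u a ^ 2) ∈ Icc (0 : ℝ) 1 := fun a => by
    refine ⟨by positivity, ?_⟩
    have : √(α + β * u a ^ 2) ≤ 1 / 2 := by
      rw [sqrt_le_left (by norm_num)]; linarith [hu a]
    linarith
  have hj := woo_convexOn.map_sum_le (t := Finset.univ) (w := q)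
    (p := fun a => 2 * √(α + β * u a ^ 2)) (fun a _ => hq a) hq1 (fun a _ => hmem a)
  have hmem2 : ∑ a, q a • (2 * √(α + β * u a ^ 2)) ∈ Icc (0 : ℝ) 1 :=
    (convex_Icc (0 : ℝ) 1).sum_mem (fun a _ => hq a) hq1 (fun a _ => hmem a)
  have hle : 2 * √(α + β * u₀ ^ 2) ≤ ∑ a, q a • (2 * √(α + β * u a ^ 2)) := by
    set s₀ := √(α + β * u₀ ^ 2) with hs₀
    have hs : s₀ ^ 2 = α + β * u₀ ^ 2 := sq_sqrt (by positivity)
    rcases eq_or_lt_of_le (show 0 ≤ s₀ from sqrt_nonneg _) with h0 | h0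
    · rw [← h0, mul_zero]; exact hmem2.1
    · have cs : ∀ a, α + β * u a * u₀ ≤ √(α + β * u a ^ 2) * s₀ := fun a => by
        rw [hs₀, ← sqrt_mul (by positivity)]
        apply le_sqrt_of_sq_le
        nlinarith [mul_nonneg (mul_nonneg hα hβ) (sq_nonneg (u a - u₀))]
      have : s₀ * s₀ ≤ (∑ a, q a * √(α + β * u a ^ 2)) * s₀ := by
        calc s₀ * s₀ = ∑ a, q a * (α + β * u a * u₀) := by
              have : ∑ a, q a * (α + β * u a * u₀) = (∑ a, q a) * α + β * (∑ a, q a * u a) * u₀ := by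
                simp only [Finset.sum_mul, Finset.mul_sum, ← Finset.sum_add_distrib]
                exact Finset.sum_congr rfl fun a _ => by ring
              rw [this, hq1, ← hu₀]; nlinarith
          _ ≤ ∑ a, q a * (√(α + β * u a ^ 2) * s₀) :=
              Finset.sum_le_sum fun a _ => mul_le_mul_of_nonneg_left (cs a) (hq a)
          _ = _ := by rw [Finset.sum_mul]; exact Finset.sum_congr rfl fun a _ => by ring
      have h2 := le_of_mul_le_mul_right this h0
      calc 2 * s₀ ≤ 2 * ∑ a, q a * √(α + β * u a ^ 2) := by linarith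
        _ = _ := by rw [Finset.mul_sum]; exact Finset.sum_congr rfl fun a _ => by simp; ring
  rw [s2_one_eq_woo (by positivity)]
  calc woo (2 * √(α + β * u₀ ^ 2)) ≤ woo (∑ a, q a • (2 * √(α + β * u a ^ 2))) :=
        woo_monotoneOn ⟨by positivity, hle.trans hmem2.2⟩ hmem2 hle
    _ ≤ _ := hj
    _ = _ := Finset.sum_congr rfl fun a _ => by rw [s2_one_eq_woo (by positivity), smul_eq_mul]

theorem negMulLog_le_s2 {T D : ℝ} (hT : 0 ≤ T) (hD : 0 ≤ D) (h : 4 * D ≤ T ^ 2) :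
    negMulLog T ≤ s2 T D := by
  refine (Rep.two hT hD h).le (Rep.scalar hT) fun x hx => ?_
  have : log (x * (x + T)) ≤ log (x ^ 2 + T * x + D) :=
    log_le_log (by positivity) (by nlinarith)
  rw [log_mul hx.ne' (by positivity)] at this
  linarith

end Crest.Agent.R341
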