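import Mathlib

/-!
Determinant inequalities for positive semidefinite complex matrices.
-/

set_option autoImplicit false

open Matrix
open scoped ComplexOrder

namespace Crest.Agent.R341

variable {n : Type*} [Fintype n]

/-- Cauchy–Schwarz for the form of a positive semidefinite matrix. -/
theorem psd_cs {N : Matrix n n ℂ} (hN : N.PosSemidef) (u w : n → ℂ) :
    ‖star u ⬝ᵥ N *ᵥ w‖ ^ 2 ≤ (star u ⬝ᵥ N *ᵥ u).re * (star w ⬝ᵥ N *ᵥ w).re := by
  let c : PreInnerProductSpace.Core ℂ (n → ℂ) :=
    { inner := fun x y => (N *ᵥ y) ⬝ᵥ star x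
      conj_inner_symm := fun x y => by
        rw [dotProduct_comm, star_dotProduct, starRingEnd_apply, star_star,
          star_mulVec, dotProduct_comm (N *ᵥ y), dotProduct_mulVec, hN.isHermitian.eq]
      re_inner_nonneg := fun x => dotProduct_comm _ (star x) ▸ hN.re_dotProduct_nonneg x
      add_left := by simp only [star_add, dotProduct_add, forall_const]
      smul_left := fun _ _ _ => by
        rw [← smul_eq_mul, ← dotProduct_smul, starRingEnd_apply, ← star_smul] }
  have h := @InnerProductSpace.Core.inner_mul_inner_self_le ℂ (n → ℂ) _ _ _ c u w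
  have h' := @InnerProductSpace.Core.norm_inner_symm ℂ (n → ℂ) _ _ _ c w u
  rw [h'] at h
  change ‖(N *ᵥ w) ⬝ᵥ star u‖ * ‖(N *ᵥ w) ⬝ᵥ star u‖ ≤
    ((N *ᵥ u) ⬝ᵥ star u).re * ((N *ᵥ w) ⬝ᵥ star w).re at h
  rw [dotProduct_comm (N *ᵥ w), dotProduct_comm (N *ᵥ u), dotProduct_comm (N *ᵥ w)] at h
  rw [sq]; exact h

theorem ofReal_re_of_nonneg {z : ℂ} (h : 0 ≤ z) : ((z.re : ℝ) : ℂ) = z := by
  obtain ⟨_, h2⟩ := Complex.le_def.1 h
  apply Complex.ext <;> simp at h2 ⊢
  exact h2

theorem re_nonneg_of_nonneg {z : ℂ} (h : 0 ≤ z) : 0 ≤ z.re := by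
  simpa using (Complex.le_def.1 h).1

variable [DecidableEq n]

theorem single_form (N : Matrix n n ℂ) (j : n) (w : n → ℂ) :
    star (Pi.single j (1 : ℂ)) ⬝ᵥ N *ᵥ w = (N *ᵥ w) j := by
  rw [← Pi.single_star, star_one, single_dotProduct, one_mul]

theorem single_form_self (N : Matrix n n ℂ) (j : n) :
    star (Pi.single j (1 : ℂ)) ⬝ᵥ N *ᵥ (Pi.single j 1) = N j j := by
  rw [single_form]; simp

/-- rank one update of a positive definite matrix -/
theorem det_rank_one_update {N : Matrix n n ℂ} (hN : N.PosDef) (z : n → ℂ) {s : ℝ} (hs : 0 ≤ s)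
    (j : n) :
    (det N).re * (1 + s * ‖z j‖ ^ 2 / (N j j).re) ≤
      (det (N + (s : ℂ) • vecMulVec z (star z))).re := by
  have hdet : IsUnit N.det := (Matrix.isUnit_iff_isUnit_det _).1 hN.isUnit
  have e1 : (s : ℂ) • vecMulVec z (star z) =
      replicateCol Unit z * replicateRow Unit ((s : ℂ) • star z) := by
    rw [← vecMulVec_eq, vecMulVec_smul]
  set w := N⁻¹ *ᵥ z with hw
  have hNw : N *ᵥ w = z := by
    rw [hw, mulVec_mulVec, mul_nonsing_inv _ hdet, one_mulVec]
  have e2 : (1 + replicateRow Unit ((s : ℂ) • star z) * N⁻¹ * replicateCol Unit z).det =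
      1 + (s : ℂ) * (star z ⬝ᵥ w) := by
    rw [det_unique, Matrix.add_apply, one_apply_eq, Matrix.mul_assoc, ← replicateCol_mulVec,
      replicateRow_mul_replicateCol_apply, smul_dotProduct, smul_eq_mul]
  rw [e1, det_add_replicateCol_mul_replicateRow hdet, e2]
  have hcs := psd_cs hN.posSemidef (Pi.single j 1) w
  rw [single_form, single_form_self, hNw] at hcs
  have hq : (star z ⬝ᵥ w).re = (star w ⬝ᵥ z).re := by
    rw [star_dotProduct]; simp
  have hjj : 0 < (N j j).re := by simpa using (Complex.lt_def.1 (hN.diag_pos (i := j))).1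
  have hd : 0 < (det N).re := by simpa using (Complex.lt_def.1 hN.det_pos).1
  rw [← ofReal_re_of_nonneg hN.det_pos.le]
  simp only [Complex.ofReal_re, Complex.re_ofReal_mul, Complex.add_re, Complex.one_re]
  refine mul_le_mul_of_nonneg_left ?_ hd.le
  rw [hq, mul_div_assoc]
  have : ‖z j‖ ^ 2 / (N j j).re ≤ (star w ⬝ᵥ z).re := by
    rw [div_le_iff₀ hjj]; linarith
  nlinarith [mul_le_mul_of_nonneg_left this hs]

/-- Key determinant lemma. -/
theorem det_add_ge {P : Matrix n n ℂ} (hP : P.PosDef) (σ : n → ℝ) (hσ : ∀ k, 0 ≤ σ k)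
    (I : Finset n) : ∀ S : Matrix n n ℂ, S.PosSemidef → (∀ k ∉ I, S k k = 0) →
      (∀ k ∈ I, ∀ ξ : n → ℂ, σ k * ‖ξ k‖ ^ 2 ≤ (star ξ ⬝ᵥ S *ᵥ ξ).re) →
      (det P).re * ∏ k ∈ I, (1 + σ k / (P k k).re) ≤ (det (P + S)).re := by
  induction I using Finset.induction_on with
  | empty =>
    intro S hS h0 _
    have : S = 0 := hS.trace_eq_zero_iff.1 (by simp [trace, h0])
    simp [this]
  | insert j I hj ih =>
    intro S hS h0 h1
    have hjj : 0 < (P j j).re := by simpa using (Complex.lt_def.1 (hP.diag_pos (i := j))).1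
    have hσs : σ j ≤ (S j j).re := by
      have := h1 j (Finset.mem_insert_self _ _) (Pi.single j 1)
      rw [single_form_self] at this
      simpa using this
    have hSjj : (((S j j).re : ℝ) : ℂ) = S j j := ofReal_re_of_nonneg hS.diag_nonneg
    set s := (S j j).re with hs
    rw [Finset.prod_insert hj]
    rcases eq_or_lt_of_le ((hσ j).trans hσs) with hs0 | hs0
    · have hσ0 : σ j = 0 := le_antisymm (hs0 ▸ hσs) (hσ j)
      rw [hσ0, zero_div, add_zero, one_mul]
      refine ih S hS (fun k hk => ?_) fun k hk => h1 k (Finset.mem_insert_of_mem hk)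
      by_cases hkj : k = j
      · rw [hkj, ← hSjj, ← hs0]; simp
      · exact h0 k (by simp [hkj, hk])
    · set z : n → ℂ := fun i => S i j with hz
      set E : Matrix n n ℂ := 1 - ((s⁻¹ : ℝ) : ℂ) • vecMulVec (Pi.single j 1) (star z) with hE
      set S' : Matrix n n ℂ := S - ((s⁻¹ : ℝ) : ℂ) • vecMulVec z (star z) with hS'
      have hsne : (s : ℂ) ≠ 0 := by exact_mod_cast hs0.ne'
      have hzj : z j = s := hSjj.symm
      have hSe : S *ᵥ (Pi.single j 1) = z := by ext i; simp [hz]
      have heS : (Pi.single j (1 : ℂ)) ᵥ* S = star z := by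
        ext i
        simp only [single_one_vecMul, hz, Pi.star_apply, row_apply]
        exact (hS.1.apply j i).symm
      have hES : Eᴴ * S * E = S' := by
        have hEH : Eᴴ = 1 - ((s⁻¹ : ℝ) : ℂ) • vecMulVec z (Pi.single j 1) := by
          rw [hE, conjTranspose_sub, conjTranspose_one, conjTranspose_smul,
            conjTranspose_vecMulVec, star_star, ← Pi.single_star, star_one]
          simp
        have a1 : Eᴴ * S = S' := by
          rw [hEH, Matrix.sub_mul, Matrix.one_mul, Matrix.smul_mul, vecMulVec_mul, heS]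
        have a2 : S' *ᵥ (Pi.single j 1) = 0 := by
          rw [hS', sub_mulVec, hSe, smul_mulVec, vecMulVec_mulVec, dotProduct_single, mul_one]
          ext i
          simp only [Pi.star_apply, hzj, Pi.sub_apply, Pi.smul_apply, smul_eq_mul, Pi.zero_apply,
            MulOpposite.smul_eq_mul_unop, MulOpposite.unop_op]
          simp only [Complex.ofReal_inv, RCLike.star_def, Complex.conj_ofReal]
          field_simp
          ring
        rw [a1, hE, Matrix.mul_sub, Matrix.mul_one, Matrix.mul_smul, mul_vecMulVec, a2]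
        simp
      have hS'psd : S'.PosSemidef := hES ▸ hS.conjTranspose_mul_mul_same E
      have hS'jj : S' j j = 0 := by
        simp only [hS', Matrix.sub_apply, Matrix.smul_apply, vecMulVec_apply, Pi.star_apply, hzj,
          smul_eq_mul, ← hSjj]
        simp only [Complex.ofReal_inv, RCLike.star_def, Complex.conj_ofReal]
        field_simp
        ring
      have key := ih S' hS'psd (fun k hk => ?_) (fun k hk ξ => ?_)
      · have hN : (P + S').PosDef := hP.add_posSemidef hS'psd
        have h2 := det_rank_one_update hN z (s := s⁻¹) (by positivity) j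
        have e : P + S' + ((s⁻¹ : ℝ) : ℂ) • vecMulVec z (star z) = P + S := by
          rw [hS']; abel
        rw [e, Matrix.add_apply, hS'jj, add_zero, hzj] at h2
        have e3 : s⁻¹ * ‖(s : ℂ)‖ ^ 2 = s := by
          rw [Complex.norm_real, Real.norm_of_nonneg hs0.le]; field_simp
        rw [e3] at h2
        have hd : 0 < (det (P + S')).re := by simpa using (Complex.lt_def.1 hN.det_pos).1
        have hle : 1 + σ j / (P j j).re ≤ 1 + s / (P j j).re := by gcongr
        have hnn : 0 ≤ 1 + σ j / (P j j).re := by have := hσ j; positivity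
        calc (det P).re * ((1 + σ j / (P j j).re) * ∏ k ∈ I, (1 + σ k / (P k k).re))
            = ((det P).re * ∏ k ∈ I, (1 + σ k / (P k k).re)) * (1 + σ j / (P j j).re) := by ring
          _ ≤ (det (P + S')).re * (1 + s / (P j j).re) := by gcongr
          _ ≤ _ := h2
      · by_cases hkj : k = j
        · rw [hkj, hS'jj]
        · have hk0 : S k k = 0 := h0 k (by simp [hkj, hk])
          have hzk : z k = 0 := by
            have := psd_cs hS (Pi.single k 1) (Pi.single j 1)
            rw [single_form_self, hk0, single_form, hSe] at this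
            simpa using this
          simp [hS', vecMulVec_apply, hk0, hzk]
      · have hkj : k ≠ j := fun h => hj (h ▸ hk)
        have := h1 k (Finset.mem_insert_of_mem hk) (E *ᵥ ξ)
        have e1 : (E *ᵥ ξ) k = ξ k := by
          rw [hE, sub_mulVec, one_mulVec, smul_mulVec, vecMulVec_mulVec]
          simp [hkj]
        rw [e1] at this
        rw [← hES, ← mulVec_mulVec, ← mulVec_mulVec, dotProduct_mulVec, ← star_mulVec]
        exact this

theorem det_add_ge_univ {P S : Matrix n n ℂ} (hP : P.PosDef) (hS : S.PosSemidef) (σ : n → ℝ)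
    (hσ : ∀ k, 0 ≤ σ k) (h : ∀ k, ∀ ξ : n → ℂ, σ k * ‖ξ k‖ ^ 2 ≤ (star ξ ⬝ᵥ S *ᵥ ξ).re) :
    (det P).re * ∏ k, (1 + σ k / (P k k).re) ≤ (det (P + S)).re :=
  det_add_ge hP σ hσ Finset.univ S hS (by simp) fun k _ => h k

theorem det_mono {P S : Matrix n n ℂ} (hP : P.PosDef) (hS : S.PosSemidef) :
    (det P).re ≤ (det (P + S)).re := by
  simpa using det_add_ge_univ hP hS (fun _ => 0) (fun _ => le_rfl)
    fun k ξ => by simpa using hS.re_dotProduct_nonneg ξ

end Crest.Agent.R341
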