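import Mathlib

/-!
Passing from "log-determinant" inequalities to entropy inequalities.

`Rep F T s` says that the function `F` (think of `x ↦ log det (1 + ρ / x)`) represents the
entropy `s` and the trace `T`.
-/

set_option autoImplicit false

open Real Filter Topology Set

namespace Crest.Agent.R341

/-- `F` represents trace `T` and entropy `s`. -/
def Rep (F : ℝ → ℝ) (T s : ℝ) : Prop :=
  ∃ Φ : ℝ → ℝ, ContinuousOn Φ (Ici 0) ∧ (∀ x, 0 < x → HasDerivAt Φ (F x - T / (1 + x)) x) ∧
    Φ 0 = -s ∧ Tendsto Φ atTop (𝓝 T)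

theorem Rep.congr {F G : ℝ → ℝ} {T T' s s' : ℝ} (h : Rep F T s) (hF : ∀ x, 0 < x → F x = G x)
    (hT : T = T') (hs : s = s') : Rep G T' s' := by
  obtain ⟨Φ, h1, h2, h3, h4⟩ := h
  subst hT hs
  exact ⟨Φ, h1, fun x hx => hF x hx ▸ h2 x hx, h3, h4⟩

theorem Rep.zero : Rep (fun _ => 0) 0 0 :=
  ⟨fun _ => 0, continuousOn_const, fun x _ => by simpa using hasDerivAt_const x (0 : ℝ), by simp,
    tendsto_const_nhds⟩

theorem Rep.add {F G : ℝ → ℝ} {T T' s s' : ℝ} (h : Rep F T s) (h' : Rep G T' s') :
    Rep (fun x => F x + G x) (T + T') (s + s') := by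
  obtain ⟨Φ, h1, h2, h3, h4⟩ := h
  obtain ⟨Ψ, g1, g2, g3, g4⟩ := h'
  refine ⟨fun x => Φ x + Ψ x, h1.add g1, fun x hx => ?_, by simp [h3, g3]; ring, h4.add g4⟩
  exact ((h2 x hx).fun_add (g2 x hx)).congr_deriv (by ring)

theorem Rep.const_mul {F : ℝ → ℝ} {T s : ℝ} (c : ℝ) (h : Rep F T s) :
    Rep (fun x => c * F x) (c * T) (c * s) := by
  obtain ⟨Φ, h1, h2, h3, h4⟩ := h
  refine ⟨fun x => c * Φ x, continuousOn_const.mul h1, fun x hx => ?_, by simp [h3],
    h4.const_mul c⟩
  exact ((h2 x hx).const_mul c).congr_deriv (by ring)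

theorem Rep.sub {F G : ℝ → ℝ} {T T' s s' : ℝ} (h : Rep F T s) (h' : Rep G T' s') :
    Rep (fun x => F x - G x) (T - T') (s - s') :=
  (h.add (h'.const_mul (-1))).congr (fun x _ => by ring) (by ring) (by ring)

theorem Rep.sum {ι : Type*} (I : Finset ι) {F : ι → ℝ → ℝ} {T s : ι → ℝ}
    (h : ∀ i ∈ I, Rep (F i) (T i) (s i)) :
    Rep (fun x => ∑ i ∈ I, F i x) (∑ i ∈ I, T i) (∑ i ∈ I, s i) := by
  classical
  induction I using Finset.induction_on with
  | empty => simpa using Rep.zero
  | insert a I ha ih =>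
    have := (h a (Finset.mem_insert_self _ _)).add
      (ih fun i hi => h i (Finset.mem_insert_of_mem hi))
    exact this.congr (fun x _ => by rw [Finset.sum_insert ha]) (by rw [Finset.sum_insert ha])
      (by rw [Finset.sum_insert ha])

theorem Rep.le {F G : ℝ → ℝ} {T s s' : ℝ} (h : Rep F T s) (h' : Rep G T s')
    (hle : ∀ x, 0 < x → G x ≤ F x) : s' ≤ s := by
  obtain ⟨Φ, h1, h2, h3, h4⟩ := h.sub h'
  have hmono : MonotoneOn Φ (Ici 0) := by
    apply monotoneOn_of_deriv_nonneg (convex_Ici 0) h1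
    · intro x hx
      rw [interior_Ici] at hx
      exact (h2 x hx).differentiableAt.differentiableWithinAt
    · intro x hx
      rw [interior_Ici] at hx
      rw [(h2 x hx).deriv]
      have := hle x hx
      simp only [sub_self, zero_div, sub_zero]
      linarith
  have : Φ 0 ≤ T - T := by
    apply ge_of_tendsto h4
    filter_upwards [eventually_ge_atTop (0 : ℝ)] with x hx
    exact hmono (le_refl (0 : ℝ)) hx hx
  linarith

theorem Rep.eq {F G : ℝ → ℝ} {T s s' : ℝ} (h : Rep F T s) (h' : Rep G T s')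
    (hle : ∀ x, 0 < x → G x = F x) : s' = s :=
  le_antisymm (h.le h' fun x hx => (hle x hx).le) (h'.le h fun x hx => (hle x hx).ge)

theorem Rep.scalar {l : ℝ} (hl : 0 ≤ l) :
    Rep (fun x => log (x + l) - log x) l (negMulLog l) := by
  refine ⟨fun x => (x + l) * log (x + l) - x * log x - l * log (1 + x), ?_, fun x hx => ?_,
    by simp [negMulLog], ?_⟩
  · refine ContinuousOn.sub (ContinuousOn.sub ?_ continuous_mul_log.continuousOn) ?_
    · exact (continuous_mul_log.comp (continuous_id.add continuous_const)).continuousOn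
    · refine continuousOn_const.mul (ContinuousOn.log (by fun_prop) fun x hx => ?_)
      have : (0 : ℝ) ≤ x := hx
      positivity
  · have e1 : HasDerivAt (fun x => (x + l) * log (x + l)) (log (x + l) + 1) x := by
      have := (hasDerivAt_mul_log (x := x + l) (by positivity)).comp x
        ((hasDerivAt_id x).add_const l)
      exact this.congr_deriv (by ring)
    have e2 := hasDerivAt_mul_log (x := x) hx.ne'
    have e3 : HasDerivAt (fun x => l * log (1 + x)) (l * (1 / (1 + x))) x := by
      have := ((hasDerivAt_id x).const_add 1).log (by simp only [id]; positivity)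
      simpa using this.const_mul l
    exact ((e1.fun_sub e2).fun_sub e3).congr_deriv (by ring)
  · have t1 := tendsto_mul_log_one_add_div_atTop l
    have t2 : Tendsto (fun x : ℝ => log (1 + (l - 1) / (1 + x))) atTop (𝓝 (log (1 + 0))) := by
      refine (ContinuousAt.tendsto (continuousAt_log (by norm_num))).comp ?_
      refine tendsto_const_nhds.add ?_
      exact tendsto_const_nhds.div_atTop (tendsto_atTop_add_const_left _ _ tendsto_id)
    have t3 := t1.add (t2.const_mul l)
    simp only [add_zero, log_one, mul_zero] at t3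
    refine t3.congr' ?_
    filter_upwards [eventually_gt_atTop (0 : ℝ)] with x hx
    have a1 : 1 + l / x = (x + l) / x := by field_simp
    have a2 : 1 + (l - 1) / (1 + x) = (x + l) / (1 + x) := by field_simp; ring
    rw [a1, a2, log_div (by positivity) hx.ne', log_div (by positivity) (by positivity)]
    ring

/-- larger root -/
noncomputable def lp (T D : ℝ) : ℝ := (T + √(T ^ 2 - 4 * D)) / 2
/-- smaller root -/
noncomputable def lm (T D : ℝ) : ℝ := (T - √(T ^ 2 - 4 * D)) / 2
/-- Entropy of a `2 × 2` positive matrix with trace `T` and determinant `D`. -/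
noncomputable def s2 (T D : ℝ) : ℝ := negMulLog (lp T D) + negMulLog (lm T D)

theorem lp_add_lm (T D : ℝ) : lp T D + lm T D = T := by unfold lp lm; ring

theorem lp_mul_lm {T D : ℝ} (h : 4 * D ≤ T ^ 2) : lp T D * lm T D = D := by
  unfold lp lm
  have := Real.sq_sqrt (show 0 ≤ T ^ 2 - 4 * D by linarith)
  nlinarith

theorem lp_nonneg {T D : ℝ} (hT : 0 ≤ T) : 0 ≤ lp T D := by
  unfold lp; positivity

theorem lm_nonneg {T D : ℝ} (hT : 0 ≤ T) (hD : 0 ≤ D) : 0 ≤ lm T D := by
  unfold lm
  have : √(T ^ 2 - 4 * D) ≤ T := by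
    rw [Real.sqrt_le_left hT]; linarith
  linarith

theorem Rep.two {T D : ℝ} (hT : 0 ≤ T) (hD : 0 ≤ D) (h : 4 * D ≤ T ^ 2) :
    Rep (fun x => log (x ^ 2 + T * x + D) - 2 * log x) T (s2 T D) := by
  refine ((Rep.scalar (lp_nonneg (D := D) hT)).add (Rep.scalar (lm_nonneg hT hD))).congr
    (fun x hx => ?_) (lp_add_lm T D) rfl
  have h1 := lp_nonneg (D := D) hT
  have h2 := lm_nonneg hT hD
  have : x ^ 2 + T * x + D = (x + lp T D) * (x + lm T D) := by
    have a := lp_add_lm T D
    have b := lp_mul_lm h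
    calc x ^ 2 + T * x + D = x ^ 2 + (lp T D + lm T D) * x + lp T D * lm T D := by rw [a, b]
      _ = _ := by ring
  rw [this, log_mul (by positivity) (by positivity)]
  ring

theorem s2_smul {t : ℝ} (ht : 0 ≤ t) (T D : ℝ) :
    s2 (t * T) (t ^ 2 * D) = t * s2 T D + T * negMulLog t := by
  have e : √((t * T) ^ 2 - 4 * (t ^ 2 * D)) = t * √(T ^ 2 - 4 * D) := by
    rw [show (t * T) ^ 2 - 4 * (t ^ 2 * D) = t ^ 2 * (T ^ 2 - 4 * D) by ring,
      Real.sqrt_mul (by positivity), Real.sqrt_sq ht]
  have e1 : lp (t * T) (t ^ 2 * D) = t * lp T D := by unfold lp; rw [e]; ring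
  have e2 : lm (t * T) (t ^ 2 * D) = t * lm T D := by unfold lm; rw [e]; ring
  unfold s2
  rw [e1, e2, negMulLog_mul, negMulLog_mul]
  have := lp_add_lm T D
  linear_combination (negMulLog t) * this

theorem s2_one (v : ℝ) : s2 1 v = binEntropy ((1 + √(1 - 4 * v)) / 2) := by
  rw [binEntropy_eq_negMulLog_add_negMulLog_one_sub]
  unfold s2 lp lm
  congr 2
  · norm_num
  · rw [one_pow]; ring

theorem s2_add_mul {p r : ℝ} (hp : 0 ≤ p) (hr : 0 ≤ r) :
    s2 (p + r) (p * r) = negMulLog p + negMulLog r := by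
  refine ((Rep.scalar hp).add (Rep.scalar hr)).eq
    (Rep.two (by positivity) (by positivity) (by nlinarith [sq_nonneg (p - r)])) fun x hx => ?_
  rw [show x ^ 2 + (p + r) * x + p * r = (x + p) * (x + r) by ring,
    log_mul (by positivity) (by positivity)]
  ring

/-- The scalar three-block functional. -/
noncomputable def kk (a p r : ℝ) : ℝ :=
  s2 (a + p + r) (p * r) - negMulLog a - negMulLog p - negMulLog r

theorem kk_smul {t : ℝ} (ht : 0 ≤ t) (a p r : ℝ) :
    kk (t * a) (t * p) (t * r) = t * kk a p r := by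
  unfold kk
  rw [show t * a + t * p + t * r = t * (a + p + r) by ring,
    show t * p * (t * r) = t ^ 2 * (p * r) by ring, s2_smul ht, negMulLog_mul, negMulLog_mul,
    negMulLog_mul]
  ring

theorem kk_zero {p r : ℝ} (hp : 0 ≤ p) (hr : 0 ≤ r) : kk 0 p r = 0 := by
  unfold kk
  rw [zero_add, s2_add_mul hp hr]
  simp

theorem Rep.kk {a p r : ℝ} (ha : 0 ≤ a) (hp : 0 ≤ p) (hr : 0 ≤ r) :
    Rep (fun x => log (1 + x * a / ((x + p) * (x + r)))) a (kk a p r + negMulLog a) := by
  have h := ((Rep.two (T := a + p + r) (D := p * r) (by positivity) (by positivity)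
    (by nlinarith [sq_nonneg (p - r), mul_nonneg ha hp, mul_nonneg ha hr, sq_nonneg a])).sub
      (Rep.scalar hp)).sub (Rep.scalar hr)
  refine h.congr (fun x hx => ?_) (by ring) (by unfold R341.kk; ring)
  have : 1 + x * a / ((x + p) * (x + r)) =
      (x ^ 2 + (a + p + r) * x + p * r) / ((x + p) * (x + r)) := by
    field_simp; ring
  rw [this, log_div (by positivity) (by positivity), log_mul (by positivity) (by positivity)]
  ring

/-- tangent line inequality for `(u, w) ↦ log (1 + c / (u w))`. -/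
theorem log_tangent {c u w u₀ w₀ : ℝ} (hc : 0 ≤ c) (hu : 0 < u) (hw : 0 < w) (hu₀ : 0 < u₀)
    (hw₀ : 0 < w₀) :
    log (1 + c / (u₀ * w₀)) - c / (u₀ * w₀ + c) * (u / u₀ + w / w₀ - 2) ≤
      log (1 + c / (u * w)) := by
  set n := c / (u₀ * w₀ + c) with hn
  have hn0 : 0 ≤ n := by positivity
  have hn1 : n ≤ 1 := by
    rw [hn, div_le_one (by positivity)]
    have : 0 < u₀ * w₀ := by positivity
    linarith
  have hconc := strictConcaveOn_log_Ioi.concaveOn.2 (show (1 : ℝ) ∈ Ioi 0 by simp)
    (show u₀ * w₀ / (u * w) ∈ Ioi (0 : ℝ) by simp only [mem_Ioi]; positivity)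
    (show 0 ≤ 1 - n by linarith) hn0 (by ring)
  simp only [smul_eq_mul, log_one, mul_zero, zero_add, mul_one] at hconc
  have e : 1 + c / (u * w) = (1 + c / (u₀ * w₀)) * (1 - n + n * (u₀ * w₀ / (u * w))) := by
    rw [hn]; field_simp; ring
  have hpos : 0 < 1 - n + n * (u₀ * w₀ / (u * w)) := by
    rcases eq_or_lt_of_le hn1 with h | h
    · rw [h]; simp only [sub_self, one_mul, zero_add]; positivity
    · have : 0 ≤ n * (u₀ * w₀ / (u * w)) := by positivity
      linarith
  rw [e, log_mul (by positivity) hpos.ne']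
  have l1 : log (u / u₀) ≤ u / u₀ - 1 := log_le_sub_one_of_pos (by positivity)
  have l2 : log (w / w₀) ≤ w / w₀ - 1 := log_le_sub_one_of_pos (by positivity)
  have e2 : log (u₀ * w₀ / (u * w)) = -log (u / u₀) - log (w / w₀) := by
    rw [log_div (by positivity) (by positivity), log_mul (by positivity) (by positivity),
      log_mul (by positivity) (by positivity), log_div (by positivity) (by positivity),
      log_div (by positivity) (by positivity)]
    ring
  rw [e2] at hconc
  nlinarith [mul_le_mul_of_nonneg_left l1 hn0, mul_le_mul_of_nonneg_left l2 hn0]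

/-- Subadditivity (convexity and homogeneity, plus monotonicity) of `kk`. -/
theorem kk_sum_le {ι : Type*} [Fintype ι] {a p r : ι → ℝ} (ha : ∀ i, 0 ≤ a i) (hp : ∀ i, 0 ≤ p i)
    (hr : ∀ i, 0 ≤ r i) {κ : ℝ} (hκ : ∑ i, r i ≤ κ) :
    kk (∑ i, a i) (∑ i, p i) κ ≤ ∑ i, kk (a i) (p i) (r i) := by
  set α := ∑ i, a i with hα
  set ϖ := ∑ i, p i with hϖ
  have hα0 : 0 ≤ α := Finset.sum_nonneg fun i _ => ha i
  have hϖ0 : 0 ≤ ϖ := Finset.sum_nonneg fun i _ => hp i
  have hκ0 : 0 ≤ κ := (Finset.sum_nonneg fun i _ => hr i).trans hκ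
  rcases eq_or_lt_of_le hα0 with h0 | hpos
  · have hz : ∀ i, a i = 0 := fun i =>
      (Finset.sum_eq_zero_iff_of_nonneg fun i _ => ha i).1 h0.symm i (Finset.mem_univ i)
    rw [← h0, kk_zero hϖ0 hκ0]
    exact Finset.sum_nonneg fun i _ => by rw [hz i, kk_zero (hp i) (hr i)]
  · set ω : ι → ℝ := fun i => a i / α with hω
    set p' : ι → ℝ := fun i => α * p i / a i with hp'
    set r' : ι → ℝ := fun i => α * r i / a i with hr'
    have hω0 : ∀ i, 0 ≤ ω i := fun i => div_nonneg (ha i) hα0
    have hp'0 : ∀ i, 0 ≤ p' i := fun i => div_nonneg (mul_nonneg hα0 (hp i)) (ha i)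
    have hr'0 : ∀ i, 0 ≤ r' i := fun i => div_nonneg (mul_nonneg hα0 (hr i)) (ha i)
    have hω1 : ∑ i, ω i = 1 := by
      simp only [hω]; rw [← Finset.sum_div, ← hα, div_self hpos.ne']
    have hhom : ∀ i, kk (a i) (p i) (r i) = ω i * kk α (p' i) (r' i) := by
      intro i
      rcases eq_or_lt_of_le (ha i) with h | h
      · simp only [hω]; rw [← h, kk_zero (hp i) (hr i)]; simp
      · rw [← kk_smul (hω0 i)]
        simp only [hω, hp', hr']
        congr 1 <;> field_simp
    have hωp : ∀ i, ω i * p' i ≤ p i := by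
      intro i
      rcases eq_or_lt_of_le (ha i) with h | h
      · simp only [hω]; rw [← h]; simp [hp i]
      · simp only [hω, hp']; apply le_of_eq; field_simp
    have hωr : ∀ i, ω i * r' i ≤ r i := by
      intro i
      rcases eq_or_lt_of_le (ha i) with h | h
      · simp only [hω]; rw [← h]; simp [hr i]
      · simp only [hω, hr']; apply le_of_eq; field_simp
    have R1 := Rep.sum Finset.univ fun i _ => (Rep.kk hα0 (hp'0 i) (hr'0 i)).const_mul (ω i)
    have R2 := Rep.kk hα0 hϖ0 hκ0
    have hT : ∑ i, ω i * α = α := by rw [← Finset.sum_mul, hω1, one_mul]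
    rw [hT] at R1
    have := R1.le R2 fun x hx => by
      have hn : 0 ≤ x * α / ((x + ϖ) * (x + κ) + x * α) := by positivity
      calc log (1 + x * α / ((x + ϖ) * (x + κ)))
          ≤ ∑ i, ω i * (log (1 + x * α / ((x + ϖ) * (x + κ))) -
              x * α / ((x + ϖ) * (x + κ) + x * α) *
                ((x + p' i) / (x + ϖ) + (x + r' i) / (x + κ) - 2)) := by
            have e : ∑ i, ω i * (log (1 + x * α / ((x + ϖ) * (x + κ))) -
              x * α / ((x + ϖ) * (x + κ) + x * α) *
                ((x + p' i) / (x + ϖ) + (x + r' i) / (x + κ) - 2)) =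
                (∑ i, ω i) * log (1 + x * α / ((x + ϖ) * (x + κ))) -
                  x * α / ((x + ϖ) * (x + κ) + x * α) *
                  (((∑ i, ω i) * x + ∑ i, ω i * p' i) / (x + ϖ) +
                    ((∑ i, ω i) * x + ∑ i, ω i * r' i) / (x + κ) - 2 * ∑ i, ω i) := by
              simp only [Finset.sum_mul, Finset.mul_sum, Finset.sum_div, ← Finset.sum_add_distrib,
                ← Finset.sum_sub_distrib]
              exact Finset.sum_congr rfl fun i _ => by ring
            rw [e, hω1]
            have b1 : (1 * x + ∑ i, ω i * p' i) / (x + ϖ) ≤ 1 := by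
              rw [div_le_one (by positivity), one_mul]
              have : ∑ i, ω i * p' i ≤ ϖ := Finset.sum_le_sum fun i _ => hωp i
              linarith
            have b2 : (1 * x + ∑ i, ω i * r' i) / (x + κ) ≤ 1 := by
              rw [div_le_one (by positivity), one_mul]
              have : ∑ i, ω i * r' i ≤ ∑ i, r i := Finset.sum_le_sum fun i _ => hωr i
              linarith
            nlinarith
        _ ≤ ∑ i, ω i * log (1 + x * α / ((x + p' i) * (x + r' i))) := by
            refine Finset.sum_le_sum fun i _ => mul_le_mul_of_nonneg_left ?_ (hω0 i)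
            have h1 := hp'0 i
            have h2 := hr'0 i
            exact log_tangent (by positivity) (by positivity) (by positivity) (by positivity)
              (by positivity)
    rw [Finset.sum_congr rfl fun i _ => hhom i]
    have e : ∑ i, ω i * (kk α (p' i) (r' i) + negMulLog α) =
        ∑ i, ω i * kk α (p' i) (r' i) + negMulLog α := by
      simp only [mul_add, Finset.sum_add_distrib, ← Finset.sum_mul, hω1, one_mul]
    linarith

end Crest.Agent.R341
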