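import Crest.Prelude.Def_QState
import Crest.Agent.R341.Block
import Crest.Agent.R341.Rep

/-!
Basic inequalities for the (unnormalised) von Neumann entropy, all obtained from determinant
inequalities.
-/

set_option autoImplicit false
set_option linter.unusedSectionVars false

open Matrix Real Crest.Quantum
open scoped ComplexOrder Kronecker

namespace Crest.Agent.R341

variable {n e f : Type*} [Fintype n] [DecidableEq n] [Fintype e] [Fintype f] [DecidableEq e]
  [DecidableEq f]

theorem exists_diag {M : Matrix n n ℂ} (h : M.IsHermitian) :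
    ∃ U : Matrix n n ℂ, Uᴴ * U = 1 ∧ U * Uᴴ = 1 ∧
      Uᴴ * M * U = diagonal fun i => (h.eigenvalues i : ℂ) := by
  refine ⟨h.eigenvectorUnitary, ?_, ?_, ?_⟩
  · exact Unitary.coe_star_mul_self h.eigenvectorUnitary
  · exact Unitary.coe_mul_star_self h.eigenvectorUnitary
  · have := h.conjStarAlgAut_star_eigenvectorUnitary
    rw [Unitary.conjStarAlgAut_star_apply] at this
    exact this

theorem dt_conj {U : Matrix n n ℂ} (hU : Uᴴ * U = 1) (M : Matrix n n ℂ) (x : ℝ) :
    dt (Uᴴ * M * U) x = dt M x := by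
  have e1 : sh x (Uᴴ * M * U) = Uᴴ * sh x M * U := by
    simp only [sh, Matrix.mul_add, Matrix.add_mul, Matrix.mul_smul, Matrix.smul_mul,
      Matrix.mul_one, hU]
  have e2 : det Uᴴ * det U = 1 := by rw [← det_mul, hU, det_one]
  unfold dt
  rw [e1, det_mul, det_mul]
  congr 1
  linear_combination (sh x M).det * e2

theorem trace_conj {U : Matrix n n ℂ} (hU : U * Uᴴ = 1) (M : Matrix n n ℂ) :
    (Uᴴ * M * U).trace = M.trace := by
  rw [trace_mul_cycle, hU, Matrix.one_mul]

theorem dt_diagonal (l : n → ℝ) (x : ℝ) :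
    dt (diagonal fun i => (l i : ℂ)) x = ∏ i, (x + l i) := by
  have : sh x (diagonal fun i => (l i : ℂ)) = diagonal fun i => ((x + l i : ℝ) : ℂ) := by
    ext i j
    by_cases h : i = j
    · subst h; simp [sh]
    · simp [sh, h]
  unfold dt
  rw [this, det_diagonal, ← Complex.ofReal_prod, Complex.ofReal_re]

theorem trace_diagonal_re (l : n → ℝ) :
    (diagonal fun i => (l i : ℂ)).trace.re = ∑ i, l i := by
  simp [trace_diagonal]

theorem vn_eq {M : Matrix n n ℂ} (h : M.IsHermitian) :
    vnEntropy M = ∑ i, negMulLog (h.eigenvalues i) := by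
  unfold vnEntropy
  rw [dif_pos h, ← Finset.sum_neg_distrib]
  exact Finset.sum_congr rfl fun i _ => by simp [negMulLog]

theorem rep_prod {l : n → ℝ} (hl : ∀ i, 0 ≤ l i) :
    Rep (fun x => log (∏ i, (x + l i)) - Fintype.card n * log x) (∑ i, l i)
      (∑ i, negMulLog (l i)) := by
  refine (Rep.sum Finset.univ fun i _ => Rep.scalar (hl i)).congr (fun x hx => ?_) rfl rfl
  rw [Real.log_prod (fun i _ => by have := hl i; positivity), Finset.sum_sub_distrib]
  simp

theorem vn_rep {M : Matrix n n ℂ} (hM : M.PosSemidef) :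
    Rep (fun x => log (dt M x) - Fintype.card n * log x) M.trace.re (vnEntropy M) := by
  obtain ⟨U, h1, h2, h3⟩ := exists_diag hM.1
  refine (rep_prod hM.eigenvalues_nonneg).congr (fun x _ => ?_) ?_ (vn_eq hM.1).symm
  · rw [← dt_conj h1 M x, h3, dt_diagonal]
  · rw [← trace_conj h2 M, h3, trace_diagonal_re]

theorem vn_of_diag {M U : Matrix n n ℂ} (hM : M.PosSemidef) (h1 : Uᴴ * U = 1) (h2 : U * Uᴴ = 1)
    {l : n → ℝ} (hl : ∀ i, 0 ≤ l i) (h3 : Uᴴ * M * U = diagonal fun i => (l i : ℂ)) :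
    vnEntropy M = ∑ i, negMulLog (l i) := by
  have R := vn_rep hM
  rw [← trace_conj h2 M, h3, trace_diagonal_re] at R
  exact (rep_prod hl).eq R fun x _ => by rw [← dt_conj h1 M x, h3, dt_diagonal]

theorem trace_submatrix_equiv (M : Matrix n n ℂ) (ε : e ≃ n) :
    (M.submatrix ε ε).trace = M.trace := by
  simp only [trace, diag_apply, submatrix_apply]
  exact ε.sum_comp fun i => M i i

theorem dt_submatrix_equiv (M : Matrix n n ℂ) (ε : e ≃ n) (x : ℝ) :
    dt (M.submatrix ε ε) x = dt M x := by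
  have : sh x (M.submatrix ε ε) = (sh x M).submatrix ε ε := by
    ext i j
    simp [sh, one_apply]
  unfold dt
  rw [this, det_submatrix_equiv_self]

theorem vn_submatrix_equiv {M : Matrix n n ℂ} (hM : M.PosSemidef) (ε : e ≃ n) :
    vnEntropy (M.submatrix ε ε) = vnEntropy M := by
  have R := vn_rep (hM.submatrix ε)
  rw [trace_submatrix_equiv] at R
  exact (vn_rep hM).eq R fun x _ => by rw [dt_submatrix_equiv, Fintype.card_congr ε]

theorem vn_zero : vnEntropy (0 : Matrix n n ℂ) = 0 := by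
  rw [vn_of_diag (U := 1) PosSemidef.zero (by simp) (by simp) (l := fun _ => 0) (fun _ => le_rfl)
    (by simp)]
  simp

theorem psd_smul {M : Matrix n n ℂ} (hM : M.PosSemidef) {t : ℝ} (ht : 0 ≤ t) :
    ((t : ℂ) • M).PosSemidef :=
  hM.smul (by exact_mod_cast ht)

theorem vn_smul {M : Matrix n n ℂ} (hM : M.PosSemidef) {t : ℝ} (ht : 0 ≤ t) :
    vnEntropy ((t : ℂ) • M) = t * vnEntropy M + M.trace.re * negMulLog t := by
  obtain ⟨U, h1, h2, h3⟩ := exists_diag hM.1
  rw [vn_of_diag (psd_smul hM ht) h1 h2 (l := fun i => t * hM.1.eigenvalues i)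
    (fun i => mul_nonneg ht (hM.eigenvalues_nonneg i))
    (by rw [Matrix.mul_smul, Matrix.smul_mul, h3, ← diagonal_smul]; congr 1; ext i; simp),
    vn_eq hM.1, ← trace_conj h2 M, h3, trace_diagonal_re]
  simp only [negMulLog_mul, Finset.sum_add_distrib, Finset.mul_sum, Finset.sum_mul]
  ring

theorem vn_kronecker {A : Matrix e e ℂ} {B : Matrix f f ℂ} (hA : A.PosSemidef)
    (hB : B.PosSemidef) :
    vnEntropy (A ⊗ₖ B) = B.trace.re * vnEntropy A + A.trace.re * vnEntropy B := by
  obtain ⟨U, h1, h2, h3⟩ := exists_diag hA.1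
  obtain ⟨V, g1, g2, g3⟩ := exists_diag hB.1
  rw [vn_of_diag (U := U ⊗ₖ V) (hA.kronecker hB)
    (by rw [conjTranspose_kronecker, ← mul_kronecker_mul, h1, g1, one_kronecker_one])
    (by rw [conjTranspose_kronecker, ← mul_kronecker_mul, h2, g2, one_kronecker_one])
    (l := fun p => hA.1.eigenvalues p.1 * hB.1.eigenvalues p.2)
    (fun p => mul_nonneg (hA.eigenvalues_nonneg _) (hB.eigenvalues_nonneg _))
    (by rw [conjTranspose_kronecker, ← mul_kronecker_mul, ← mul_kronecker_mul, h3, g3,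
      diagonal_kronecker_diagonal]; congr 1; ext i; simp),
    vn_eq hA.1, vn_eq hB.1, ← trace_conj h2 A, h3, trace_diagonal_re, ← trace_conj g2 B, g3,
    trace_diagonal_re]
  simp only [negMulLog_mul, Finset.sum_add_distrib, Fintype.sum_prod_type, Finset.sum_mul_sum]
  congr 1
  exact Finset.sum_comm

omit [DecidableEq e] [DecidableEq f] in
theorem trace_fromBlocks' (A : Matrix e e ℂ) (B : Matrix e f ℂ) (B' : Matrix f e ℂ)
    (C : Matrix f f ℂ) : (fromBlocks A B B' C).trace = A.trace + C.trace := by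
  simp [trace, Fintype.sum_sum_type]

/-- Pinching increases the entropy. -/
theorem vn_pinch {A : Matrix e e ℂ} {B : Matrix e f ℂ} {C : Matrix f f ℂ}
    (hM : (fromBlocks A B Bᴴ C).PosSemidef) :
    vnEntropy (fromBlocks A B Bᴴ C) ≤ vnEntropy A + vnEntropy C := by
  have hA := psd_block₁ hM
  have hC := psd_block₂ hM
  have R := vn_rep hM
  rw [trace_fromBlocks', Complex.add_re] at R
  refine ((vn_rep hA).add (vn_rep hC)).le R fun x hx => ?_
  have := log_le_log (dt_pos hx hM) (dt_fischer hx hM)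
  rw [log_mul (dt_pos hx hA).ne' (dt_pos hx hC).ne'] at this
  simp only [Fintype.card_sum, Nat.cast_add]
  linarith

/-- The three-block entropy inequality. -/
theorem vn_three {A : Matrix e e ℂ} {B : Matrix e f ℂ} {C : Matrix f f ℂ}
    (hM : (fromBlocks A B Bᴴ C).PosSemidef) {P : Matrix e e ℂ} (hP : P.PosSemidef) :
    kk A.trace.re P.trace.re C.trace.re + vnEntropy A + vnEntropy P + vnEntropy C ≤
      vnEntropy (fromBlocks (A + P) B Bᴴ C) := by
  have hA := psd_block₁ hM
  have hC := psd_block₂ hM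
  obtain ⟨U, h1, h2, h3⟩ := exists_diag hA.1
  set a := hA.1.eigenvalues with ha
  have ha0 : ∀ k, 0 ≤ a k := hA.eigenvalues_nonneg
  set W : Matrix (e ⊕ f) (e ⊕ f) ℂ := fromBlocks U 0 0 1 with hW
  have hW1 : Wᴴ * W = 1 := by
    rw [hW, fromBlocks_conjTranspose, fromBlocks_multiply]
    simp [h1]
  have hconj : ∀ A' : Matrix e e ℂ, Wᴴ * fromBlocks A' B Bᴴ C * W =
      fromBlocks (Uᴴ * A' * U) (Uᴴ * B) (Uᴴ * B)ᴴ C := by
    intro A'
    rw [hW, fromBlocks_conjTranspose, fromBlocks_multiply, fromBlocks_multiply]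
    simp
  have hM' : (fromBlocks (diagonal fun k => (a k : ℂ)) (Uᴴ * B) (Uᴴ * B)ᴴ C).PosSemidef := by
    rw [← h3, ← hconj]
    exact hM.conjTranspose_mul_mul_same W
  have hP' : (Uᴴ * P * U).PosSemidef := hP.conjTranspose_mul_mul_same U
  have hX : (fromBlocks (A + P) B Bᴴ C).PosSemidef := by
    have := hM.add (psd_fromBlocks_diag hP (PosSemidef.zero (n := f)))
    rw [fromBlocks_add] at this
    simpa using this
  set p : e → ℝ := fun k => ((Uᴴ * P * U) k k).re with hp
  set r : e → ℝ := rowW a (Uᴴ * B) with hr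
  have hp0 : ∀ k, 0 ≤ p k := fun k => re_nonneg_of_nonneg hP'.diag_nonneg
  have hr0 : ∀ k, 0 ≤ r k := fun k =>
    div_nonneg (Finset.sum_nonneg fun j _ => by positivity) (ha0 k)
  have hsa : ∑ k, a k = A.trace.re := by rw [← trace_conj h2 A, h3, trace_diagonal_re]
  have hsp : ∑ k, p k = P.trace.re := by
    rw [← trace_conj h2 P]; simp [hp, trace]
  have R1 := vn_rep hX
  have R2 := ((vn_rep hP).add (vn_rep hC)).add
    (Rep.sum Finset.univ fun k _ => Rep.kk (ha0 k) (hp0 k) (hr0 k))
  have hT : (fromBlocks (A + P) B Bᴴ C).trace.re = P.trace.re + C.trace.re + ∑ k, a k := by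
    rw [trace_fromBlocks', trace_add, hsa]; simp; ring
  rw [hT] at R1
  have key := R1.le R2 fun x hx => by
    have h := dt_three hx ha0 hM' hP'
    rw [← h3, ← Matrix.add_mul, ← Matrix.mul_add, ← hconj, dt_conj hW1, dt_conj h1] at h
    have hpos : ∀ k, 0 < 1 + x * a k / ((x + p k) * (x + r k)) := fun k => by
      have := ha0 k; have := hp0 k; have := hr0 k; positivity
    have h' := log_le_log (mul_pos (mul_pos (dt_pos hx hP) (dt_pos hx hC))
      (Finset.prod_pos fun k _ => hpos k)) h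
    rw [log_mul (mul_pos (dt_pos hx hP) (dt_pos hx hC)).ne'
      (Finset.prod_pos fun k _ => hpos k).ne', log_mul (dt_pos hx hP).ne' (dt_pos hx hC).ne',
      Real.log_prod (fun k _ => (hpos k).ne')] at h'
    simp only [Fintype.card_sum, Nat.cast_add]
    linarith
  have hk := kk_sum_le ha0 hp0 hr0 (sum_rowW_le hM')
  rw [hsa, hsp] at hk
  rw [Finset.sum_add_distrib, ← vn_eq hA.1] at key
  linarith

/-- homogeneous entropy -/
noncomputable def hS (M : Matrix n n ℂ) : ℝ := vnEntropy M - negMulLog M.trace.re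

theorem hS_smul {M : Matrix n n ℂ} (hM : M.PosSemidef) {t : ℝ} (ht : 0 ≤ t) :
    hS ((t : ℂ) • M) = t * hS M := by
  unfold hS
  rw [vn_smul hM ht, trace_smul, smul_eq_mul, Complex.re_ofReal_mul, negMulLog_mul]
  ring

/-- Superadditivity of the homogeneous entropy (concavity). -/
theorem hS_add {A P : Matrix n n ℂ} (hA : A.PosSemidef) (hP : P.PosSemidef) :
    hS A + hS P ≤ hS (A + P) := by
  have hM : (fromBlocks A (0 : Matrix n Empty ℂ) (0 : Matrix n Empty ℂ)ᴴ 0).PosSemidef := by
    simpa using psd_fromBlocks_diag hA (PosSemidef.zero (n := Empty))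
  have h := vn_three hM hP
  have hAP := hA.add hP
  have h' : vnEntropy (fromBlocks (A + P) (0 : Matrix n Empty ℂ) (0 : Matrix n Empty ℂ)ᴴ 0) ≤
      vnEntropy (A + P) + vnEntropy (0 : Matrix Empty Empty ℂ) :=
    vn_pinch (by simpa using psd_fromBlocks_diag hAP (PosSemidef.zero (n := Empty)))
  have ha := re_nonneg_of_nonneg hA.trace_nonneg
  have hp := re_nonneg_of_nonneg hP.trace_nonneg
  have e1 : kk A.trace.re P.trace.re (0 : Matrix Empty Empty ℂ).trace.re =
      negMulLog (A.trace.re + P.trace.re) - negMulLog A.trace.re - negMulLog P.trace.re := by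
    have := s2_add_mul (add_nonneg ha hp) (le_refl 0)
    simp only [trace_zero, Complex.zero_re, kk, mul_zero, negMulLog_zero, add_zero, sub_zero] at *
    rw [this]
  rw [e1, vn_zero] at h
  rw [vn_zero] at h'
  unfold hS
  rw [trace_add, Complex.add_re]
  linarith

/-- Three-block inequality in homogeneous form. -/
theorem hS_three {A : Matrix e e ℂ} {B : Matrix e f ℂ} {C : Matrix f f ℂ}
    (hM : (fromBlocks A B Bᴴ C).PosSemidef) {P : Matrix e e ℂ} (hP : P.PosSemidef)
    {t v : ℝ} (ht : 0 ≤ t) (hT : A.trace.re + P.trace.re + C.trace.re = t)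
    (hD : P.trace.re * C.trace.re = t ^ 2 * v) :
    t * s2 1 v + hS A + hS P + hS C ≤ hS (fromBlocks (A + P) B Bᴴ C) := by
  have h := vn_three hM hP
  unfold kk at h
  have := s2_smul ht 1 v
  rw [hT, hD, ← mul_one t] at h
  unfold hS
  rw [trace_fromBlocks', trace_add, Complex.add_re, Complex.add_re, hT]
  rw [mul_one t] at h this
  linarith

/-- entropy of a `2 × 2` matrix -/
theorem vn_two {M : Matrix Bool Bool ℂ} (hM : M.PosSemidef) {D : ℝ}
    (hD : M false false * M true true - M false true * M true false = D) (hD0 : 0 ≤ D)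
    (hD1 : 4 * D ≤ M.trace.re ^ 2) :
    vnEntropy M = s2 M.trace.re D := by
  refine (Rep.two (re_nonneg_of_nonneg hM.trace_nonneg) hD0 hD1).eq (vn_rep hM) fun x hx => ?_
  have : det (sh x M) = (x : ℂ) ^ 2 + M.trace * x + D := by
    rw [← det_submatrix_equiv_self finTwoEquiv, det_fin_two, ← hD]
    simp [sh, trace, finTwoEquiv]
    ring
  unfold dt
  rw [this, ← ofReal_re_of_nonneg hM.trace_nonneg]
  norm_cast

end Crest.Agent.R341
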