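import Crest.Prelude.Def_AmpDamp
import Crest.Agent.R341.Entropy
import Crest.Agent.R341.Convex

/-!
The key entropy inequality for the generalized amplitude-damping channel tensored with the
identity.
-/

set_option autoImplicit false
set_option linter.unusedSectionVars false

open Matrix Real Crest.Quantum Crest.MathPhysics.AmpDamp
open scoped ComplexOrder Kronecker

namespace Crest.Agent.R341

variable {e : Type*} [Fintype e] [DecidableEq e]

theorem hS_submatrix_equiv {n : Type*} [Fintype n] [DecidableEq n] {M : Matrix n n ℂ}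
    (hM : M.PosSemidef) (ε : e ≃ n) : hS (M.submatrix ε ε) = hS M := by
  unfold hS
  rw [vn_submatrix_equiv hM, trace_submatrix_equiv]

theorem psd_scale {A B C : Matrix e e ℂ} (hM : (fromBlocks A B Bᴴ C).PosSemidef) (k l : ℝ) :
    (fromBlocks (((k ^ 2 : ℝ) : ℂ) • A) (((k * l : ℝ) : ℂ) • B) (((k * l : ℝ) : ℂ) • B)ᴴ
      (((l ^ 2 : ℝ) : ℂ) • C)).PosSemidef := by
  have := hM.conjTranspose_mul_mul_same
    (fromBlocks ((k : ℂ) • (1 : Matrix e e ℂ)) 0 0 ((l : ℂ) • (1 : Matrix e e ℂ)))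
  rw [fromBlocks_conjTranspose, fromBlocks_multiply, fromBlocks_multiply] at this
  convert this using 2 <;> simp [smul_smul, sq, mul_comm] <;> (ext i j; simp)

theorem psd_swap {A B C : Matrix e e ℂ} (hM : (fromBlocks A B Bᴴ C).PosSemidef) :
    (fromBlocks C Bᴴ Bᴴᴴ A).PosSemidef := by
  have := hM.submatrix (Sum.swap : e ⊕ e → e ⊕ e)
  rw [fromBlocks_submatrix_sum_swap_sum_swap] at this
  rwa [conjTranspose_conjTranspose]

theorem trace_smul_re (t : ℝ) (A : Matrix e e ℂ) : ((t : ℂ) • A).trace.re = t * A.trace.re := by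
  rw [trace_smul, smul_eq_mul, Complex.re_ofReal_mul]

theorem hS_three' {A B C : Matrix e e ℂ} (hM : (fromBlocks A B Bᴴ C).PosSemidef)
    {P : Matrix e e ℂ} (hP : P.PosSemidef) :
    s2 (A.trace.re + P.trace.re + C.trace.re) (P.trace.re * C.trace.re) -
      negMulLog (A.trace.re + P.trace.re + C.trace.re) + hS A + hS P + hS C ≤
      hS (fromBlocks (A + P) B Bᴴ C) := by
  have h := vn_three hM hP
  unfold kk at h
  unfold hS
  rw [trace_fromBlocks', trace_add, Complex.add_re, Complex.add_re]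
  linarith

/-- The output block matrix of a diagonal-type qubit map. -/
noncomputable def outM (a b c d μ : ℝ) (A B C : Matrix e e ℂ) : Matrix (e ⊕ e) (e ⊕ e) ℂ :=
  fromBlocks ((a : ℂ) • A + (b : ℂ) • C) ((μ : ℂ) • B) ((μ : ℂ) • Bᴴ) ((c : ℂ) • A + (d : ℂ) • C)

theorem key_split {A B C : Matrix e e ℂ} (hM : (fromBlocks A B Bᴴ C).PosSemidef)
    (k₁ l₁ k₂ l₂ : ℝ) {b c : ℝ} (hb : 0 ≤ b) (hc : 0 ≤ c) {α κ : ℝ} (hα : A.trace.re = α)
    (hκ : C.trace.re = κ) :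
    (outM (k₁ ^ 2 + k₂ ^ 2) b c (l₁ ^ 2 + l₂ ^ 2) (k₁ * l₁ + k₂ * l₂) A B C).PosSemidef ∧
    (s2 (k₁ ^ 2 * α + b * κ + l₁ ^ 2 * κ) (b * κ * (l₁ ^ 2 * κ)) -
        negMulLog (k₁ ^ 2 * α + b * κ + l₁ ^ 2 * κ)) +
      (s2 (l₂ ^ 2 * κ + c * α + k₂ ^ 2 * α) (c * α * (k₂ ^ 2 * α)) -
        negMulLog (l₂ ^ 2 * κ + c * α + k₂ ^ 2 * α)) +
      (k₁ ^ 2 + k₂ ^ 2 + c) * hS A + (l₁ ^ 2 + l₂ ^ 2 + b) * hS C ≤
      hS (outM (k₁ ^ 2 + k₂ ^ 2) b c (l₁ ^ 2 + l₂ ^ 2) (k₁ * l₁ + k₂ * l₂) A B C) := by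
  have hA := psd_block₁ hM
  have hC := psd_block₂ hM
  have h1 := hS_three' (psd_scale hM k₁ l₁) (psd_smul hC hb)
  have h2 := hS_three' (psd_scale (psd_swap hM) l₂ k₂) (psd_smul hA hc)
  simp only [trace_smul_re, hα, hκ] at h1 h2
  rw [hS_smul hA (by positivity), hS_smul hC (by positivity), hS_smul hC (by positivity)] at h1
  rw [hS_smul hC (by positivity), hS_smul hA (by positivity), hS_smul hA (by positivity)] at h2
  set X₁ := fromBlocks (((k₁ ^ 2 : ℝ) : ℂ) • A + (b : ℂ) • C) (((k₁ * l₁ : ℝ) : ℂ) • B)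
    (((k₁ * l₁ : ℝ) : ℂ) • B)ᴴ (((l₁ ^ 2 : ℝ) : ℂ) • C) with hX₁
  set X₂ := fromBlocks (((l₂ ^ 2 : ℝ) : ℂ) • C + (c : ℂ) • A) (((l₂ * k₂ : ℝ) : ℂ) • Bᴴ)
    (((l₂ * k₂ : ℝ) : ℂ) • Bᴴ)ᴴ (((k₂ ^ 2 : ℝ) : ℂ) • A) with hX₂
  have p1 : X₁.PosSemidef := by
    have := (psd_scale hM k₁ l₁).add (psd_fromBlocks_diag (psd_smul hC hb)
      (PosSemidef.zero (n := e)))
    rw [fromBlocks_add] at this
    simpa only [add_zero] using this
  have p2 : X₂.PosSemidef := by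
    have := (psd_scale (psd_swap hM) l₂ k₂).add (psd_fromBlocks_diag (psd_smul hA hc)
      (PosSemidef.zero (n := e)))
    rw [fromBlocks_add] at this
    simpa only [add_zero] using this
  have p2' := p2.submatrix (Equiv.sumComm e e)
  have e2 := hS_submatrix_equiv p2 (Equiv.sumComm e e)
  have hsum : outM (k₁ ^ 2 + k₂ ^ 2) b c (l₁ ^ 2 + l₂ ^ 2) (k₁ * l₁ + k₂ * l₂) A B C =
      X₁ + X₂.submatrix (Equiv.sumComm e e) (Equiv.sumComm e e) := by
    rw [hX₁, hX₂, Equiv.sumComm_apply, fromBlocks_submatrix_sum_swap_sum_swap, fromBlocks_add,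
      outM]
    congr 1
    · push_cast; module
    · simp only [conjTranspose_smul, conjTranspose_conjTranspose, RCLike.star_def,
        Complex.conj_ofReal]
      push_cast; module
    · simp only [conjTranspose_smul, RCLike.star_def, Complex.conj_ofReal]
      push_cast; module
    · push_cast; module
  rw [hsum]
  refine ⟨p1.add p2', ?_⟩
  have h3 := hS_add p1 p2'
  rw [e2] at h3
  linarith

/-- The determinant of the output of a pure state with excited population `p`. -/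
noncomputable def gv (γ ν p : ℝ) : ℝ := γ * ν * (1 - ν) + γ * (1 - γ) * (p - ν) ^ 2

/-- output of the channel in block form -/
noncomputable def gadOut (γ ν : ℝ) (A B C : Matrix e e ℂ) : Matrix (e ⊕ e) (e ⊕ e) ℂ :=
  outM (1 - γ * ν) (γ * (1 - ν)) (γ * ν) (1 - γ + γ * ν) (√(1 - γ)) A B C

theorem gadOut_key₀ {γ ν : ℝ} (hγ : γ ∈ Set.Icc (0 : ℝ) 1) (hν : ν ∈ Set.Icc (0 : ℝ) 1)
    {A B C : Matrix e e ℂ} (hM : (fromBlocks A B Bᴴ C).PosSemidef) :
    (gadOut γ ν A B C).PosSemidef ∧ hS A + hS C ≤ hS (gadOut γ ν A B C) := by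
  obtain ⟨g0, g1⟩ := hγ
  obtain ⟨n0, n1⟩ := hν
  have s1 : √(1 - ν) ^ 2 = 1 - ν := sq_sqrt (by linarith)
  have s2' : √ν ^ 2 = ν := sq_sqrt n0
  have s3 : √(1 - γ) ^ 2 = 1 - γ := sq_sqrt (by linarith)
  have hα := re_nonneg_of_nonneg (psd_block₁ hM).trace_nonneg
  have hκ := re_nonneg_of_nonneg (psd_block₂ hM).trace_nonneg
  have hb : 0 ≤ γ * (1 - ν) := mul_nonneg g0 (by linarith)
  have hc : 0 ≤ γ * ν := mul_nonneg g0 n0
  have h := key_split hM (√(1 - ν)) (√(1 - ν) * √(1 - γ)) (√ν * √(1 - γ)) (√ν) hb hc rfl rfl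
  have e1 : √(1 - ν) ^ 2 + (√ν * √(1 - γ)) ^ 2 = 1 - γ * ν := by
    rw [mul_pow, s1, s2', s3]; ring
  have e2 : (√(1 - ν) * √(1 - γ)) ^ 2 + √ν ^ 2 = 1 - γ + γ * ν := by
    rw [mul_pow, s1, s2', s3]; ring
  have e3 : √(1 - ν) * (√(1 - ν) * √(1 - γ)) + √ν * √(1 - γ) * √ν = √(1 - γ) := by
    linear_combination √(1 - γ) * s1 + √(1 - γ) * s2'
  rw [e1, e2, e3] at h
  refine ⟨h.1, ?_⟩
  have h2 := h.2
  set α := A.trace.re
  set κ := C.trace.re
  have q1 := negMulLog_le_s2 (T := √(1 - ν) ^ 2 * α + γ * (1 - ν) * κ + (√(1 - ν) * √(1 - γ)) ^ 2 * κ)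
    (D := γ * (1 - ν) * κ * ((√(1 - ν) * √(1 - γ)) ^ 2 * κ)) (by positivity) (by positivity)
    (by
      have a1 : 0 ≤ √(1 - ν) ^ 2 * α := by positivity
      have a2 : 0 ≤ γ * (1 - ν) * κ := by positivity
      have a3 : 0 ≤ (√(1 - ν) * √(1 - γ)) ^ 2 * κ := by positivity
      generalize √(1 - ν) ^ 2 * α = x at *
      generalize γ * (1 - ν) * κ = y at *
      generalize (√(1 - ν) * √(1 - γ)) ^ 2 * κ = z at *
      nlinarith [sq_nonneg (y - z), mul_nonneg a1 a2, mul_nonneg a1 a3, sq_nonneg x])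
  have q2 := negMulLog_le_s2 (T := √ν ^ 2 * κ + γ * ν * α + (√ν * √(1 - γ)) ^ 2 * α)
    (D := γ * ν * α * ((√ν * √(1 - γ)) ^ 2 * α)) (by positivity) (by positivity)
    (by
      have a1 : 0 ≤ √ν ^ 2 * κ := by positivity
      have a2 : 0 ≤ γ * ν * α := by positivity
      have a3 : 0 ≤ (√ν * √(1 - γ)) ^ 2 * α := by positivity
      generalize √ν ^ 2 * κ = x at *
      generalize γ * ν * α = y at *
      generalize (√ν * √(1 - γ)) ^ 2 * α = z at *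
      nlinarith [sq_nonneg (y - z), mul_nonneg a1 a2, mul_nonneg a1 a3, sq_nonneg x])
  have r1 : 1 - γ * ν + γ * ν = 1 := by ring
  have r2 : 1 - γ + γ * ν + γ * (1 - ν) = 1 := by ring
  rw [r1, r2] at h2
  unfold gadOut
  linarith

theorem gadOut_key {γ ν : ℝ} (hγ : γ ∈ Set.Icc (0 : ℝ) 1) (hν : ν ∈ Set.Icc (0 : ℝ) 1)
    {A B C : Matrix e e ℂ} (hM : (fromBlocks A B Bᴴ C).PosSemidef) {p : ℝ}
    (hα : A.trace.re = 1 - p) (hκ : C.trace.re = p) :
    s2 1 (gv γ ν p) + hS A + hS C ≤ hS (gadOut γ ν A B C) := by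
  have h0 := (gadOut_key₀ hγ hν hM).2
  obtain ⟨g0, g1⟩ := hγ
  obtain ⟨n0, n1⟩ := hν
  have p1 : 0 ≤ 1 - p := hα ▸ re_nonneg_of_nonneg (psd_block₁ hM).trace_nonneg
  have p0 : 0 ≤ p := hκ ▸ re_nonneg_of_nonneg (psd_block₂ hM).trace_nonneg
  have hb : 0 ≤ γ * (1 - ν) := mul_nonneg g0 (by linarith)
  have hc : 0 ≤ γ * ν := mul_nonneg g0 n0
  have hv0 : 0 ≤ gv γ ν p := by
    have : 0 ≤ 1 - γ := by linarith
    have : 0 ≤ 1 - ν := by linarith
    unfold gv; positivity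
  rcases eq_or_lt_of_le hv0 with hv | hv
  · rw [← hv, s2_one]; simpa using h0
  set v := gv γ ν p with hvdef
  set b := γ * (1 - ν) with hbdef
  set c := γ * ν with hcdef
  set lam := √(1 - γ) with hlam
  have s3 : lam ^ 2 = 1 - γ := sq_sqrt (by linarith)
  set x₀ := (1 - γ * ν) * (1 - p) + γ * (1 - ν) * p with hx₀
  set x₁ := γ * ν * (1 - p) + (1 - γ + γ * ν) * p with hx₁
  have hx₀0 : 0 ≤ x₀ := by
    have : 0 ≤ 1 - γ * ν := by nlinarith
    positivity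
  have hx₁0 : 0 ≤ x₁ := by
    have : 0 ≤ 1 - γ + γ * ν := by nlinarith
    positivity
  set sb := √(b / v) with hsb
  set sc := √(c / v) with hsc
  have s1 : sb ^ 2 * v = b := by rw [hsb, sq_sqrt (by positivity)]; field_simp
  have s2' : sc ^ 2 * v = c := by rw [hsc, sq_sqrt (by positivity)]; field_simp
  have h := key_split hM (sb * lam * p) (sb * x₁) (sc * x₀) (sc * lam * (1 - p)) hb hc hα hκ
  have hv' : v = γ * ν * (1 - ν) + γ * (1 - γ) * (p - ν) ^ 2 := rfl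
  have e1 : (sb * lam * p) ^ 2 + (sc * x₀) ^ 2 = 1 - γ * ν := by
    refine mul_right_cancel₀ hv.ne' ?_
    calc ((sb * lam * p) ^ 2 + (sc * x₀) ^ 2) * v
        = (sb ^ 2 * v) * lam ^ 2 * p ^ 2 + (sc ^ 2 * v) * x₀ ^ 2 := by ring
      _ = _ := by rw [s1, s2', s3, hv', hbdef, hcdef, hx₀]; ring
  have e2 : (sb * x₁) ^ 2 + (sc * lam * (1 - p)) ^ 2 = 1 - γ + γ * ν := by
    refine mul_right_cancel₀ hv.ne' ?_
    calc ((sb * x₁) ^ 2 + (sc * lam * (1 - p)) ^ 2) * v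
        = (sb ^ 2 * v) * x₁ ^ 2 + (sc ^ 2 * v) * lam ^ 2 * (1 - p) ^ 2 := by ring
      _ = _ := by rw [s1, s2', s3, hv', hbdef, hcdef, hx₁]; ring
  have e3 : sb * lam * p * (sb * x₁) + sc * x₀ * (sc * lam * (1 - p)) = lam := by
    refine mul_right_cancel₀ hv.ne' ?_
    calc (sb * lam * p * (sb * x₁) + sc * x₀ * (sc * lam * (1 - p))) * v
        = lam * ((sb ^ 2 * v) * p * x₁ + (sc ^ 2 * v) * x₀ * (1 - p)) := by ring
      _ = _ := by rw [s1, s2', hv', hbdef, hcdef, hx₀, hx₁]; ring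
  set t₁ := sb ^ 2 * p * x₁ with ht₁
  set t₂ := sc ^ 2 * (1 - p) * x₀ with ht₂
  have e4 : (sb * lam * p) ^ 2 * (1 - p) + b * p + (sb * x₁) ^ 2 * p = t₁ * 1 := by
    rw [← s1, ht₁]
    have : lam ^ 2 * p * (1 - p) + v + x₁ ^ 2 = x₁ := by rw [s3, hv', hx₁]; ring
    linear_combination (sb ^ 2 * p) * this
  have e5 : b * p * ((sb * x₁) ^ 2 * p) = t₁ ^ 2 * v := by rw [← s1, ht₁]; ring
  have e6 : (sc * lam * (1 - p)) ^ 2 * p + c * (1 - p) + (sc * x₀) ^ 2 * (1 - p) = t₂ * 1 := by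
    rw [← s2', ht₂]
    have : lam ^ 2 * p * (1 - p) + v + x₀ ^ 2 = x₀ := by rw [s3, hv', hx₀]; ring
    linear_combination (sc ^ 2 * (1 - p)) * this
  have e7 : c * (1 - p) * ((sc * x₀) ^ 2 * (1 - p)) = t₂ ^ 2 * v := by rw [← s2', ht₂]; ring
  have e8 : t₁ + t₂ = 1 := by
    refine mul_right_cancel₀ hv.ne' ?_
    calc (t₁ + t₂) * v = (sb ^ 2 * v) * p * x₁ + (sc ^ 2 * v) * x₀ * (1 - p) := by
          rw [ht₁, ht₂]; ring
      _ = _ := by rw [s1, s2', hv', hbdef, hcdef, hx₀, hx₁]; ring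
  have h2 := h.2
  rw [e1, e2, e3, e4, e5, e6, e7, s2_smul (by positivity), s2_smul (by positivity)] at h2
  have r1 : 1 - γ * ν + c = 1 := by rw [hcdef]; ring
  have r2 : 1 - γ + γ * ν + b = 1 := by rw [hbdef]; ring
  rw [r1, r2] at h2
  simp only [mul_one, one_mul] at h2
  unfold gadOut
  have : t₁ * s2 1 v + t₂ * s2 1 v = s2 1 v := by rw [← add_mul, e8, one_mul]
  linarith

end Crest.Agent.R341
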