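import Crest.Agent.R341.Prod

/-!
The Holevo information of tensor powers of the amplitude-damping channel.
-/

set_option autoImplicit false
set_option linter.unusedSectionVars false

open Matrix Real Crest.Quantum Crest.MathPhysics.AmpDamp
open scoped ComplexOrder Kronecker

namespace Crest.Agent.R341

theorem vn_unique {n : Type*} [Fintype n] [DecidableEq n] [Unique n] {M : Matrix n n ℂ}
    (hM : IsDensity M) : vnEntropy M = 0 := by
  have h : M default default = 1 := by simpa [trace] using hM.2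
  rw [vn_of_diag (U := 1) hM.1 (by simp) (by simp) (l := fun _ => 1) (fun _ => zero_le_one) ?_]
  · simp
  · ext i j
    rw [Subsingleton.elim i default, Subsingleton.elim j default]
    simp [h]

theorem isEns_submatrix {ι d d' : Type*} [Fintype ι] [Fintype d] [DecidableEq d] [Fintype d']
    [DecidableEq d'] {q : ι → ℝ} {ρ : ι → Matrix d d ℂ} (h : IsEns q ρ) (ε : d' ≃ d) :
    IsEns q fun a => (ρ a).submatrix ε ε :=
  ⟨h.1, h.2.1, fun a => ⟨(h.2.2 a).1.submatrix _, (trace_submatrix_equiv _ ε).trans (h.2.2 a).2⟩⟩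

theorem chi_power_succ {γ ν : ℝ} (hγ : γ ∈ Set.Icc (0 : ℝ) 1) (hν : ν ∈ Set.Icc (0 : ℝ) 1)
    (n : ℕ) {ι : Type*} [Fintype ι] {q : ι → ℝ}
    {ρ : ι → Matrix (Fin (n + 1) → Bool) (Fin (n + 1) → Bool) ℂ} (h : IsEns q ρ) :
    chi (qubitPower (n + 1) (gadMap γ ν)) q ρ =
      chi (qubitTensor (gadMap γ ν) (qubitPower n (gadMap γ ν))) q
        fun a => (ρ a).submatrix (splitEq n) (splitEq n) := by
  have hX : IsEns q fun a => qubitPower (n + 1) (gadMap γ ν) (ρ a) :=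
    ⟨h.1, h.2.1, fun a => chan_density (power_channel hγ hν _) (h.2.2 a)⟩
  unfold chi
  simp only [← power_succ]
  rw [← vn_submatrix_equiv (avg_density hX).1 (splitEq n)]
  congr 1
  · congr 1
    ext i j
    simp [Matrix.sum_apply]
  · exact Finset.sum_congr rfl fun a _ => by rw [vn_submatrix_equiv (hX.2.2 a).1]

theorem chi_power_zero {γ ν : ℝ} (hγ : γ ∈ Set.Icc (0 : ℝ) 1) (hν : ν ∈ Set.Icc (0 : ℝ) 1)
    {ι : Type*} [Fintype ι] {q : ι → ℝ}
    {ρ : ι → Matrix (Fin 0 → Bool) (Fin 0 → Bool) ℂ} (h : IsEns q ρ) :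
    chi (qubitPower 0 (gadMap γ ν)) q ρ = 0 := by
  have hX : IsEns q fun a => qubitPower 0 (gadMap γ ν) (ρ a) :=
    ⟨h.1, h.2.1, fun a => chan_density (power_channel hγ hν _) (h.2.2 a)⟩
  unfold chi
  rw [vn_unique (avg_density hX)]
  simp [fun a => vn_unique (hX.2.2 a)]

theorem power_upper {γ ν : ℝ} (hγ : γ ∈ Set.Icc (0 : ℝ) 1) (hν : ν ∈ Set.Icc (0 : ℝ) 1)
    (n : ℕ) : ∀ {ι : Type} [Fintype ι] (q : ι → ℝ)
      (ρ : ι → Matrix (Fin n → Bool) (Fin n → Bool) ℂ), IsEns q ρ →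
      ∃ p ∈ Set.Icc (0 : ℝ) 1, chi (qubitPower n (gadMap γ ν)) q ρ ≤ n * gadRate γ ν p := by
  induction n with
  | zero =>
    intro ι _ q ρ h
    exact ⟨0, by simp, by simp [chi_power_zero hγ hν h]⟩
  | succ n ih =>
    intro ι _ q ρ h
    rw [chi_power_succ hγ hν n h]
    obtain ⟨p, hp, q₂, ρ₂, h₂, hle⟩ := chi_tensor_le hγ hν (power_channel hγ hν n)
      (isEns_submatrix h (splitEq n))
    obtain ⟨p', hp', hle'⟩ := ih q₂ ρ₂ h₂
    have hn : (0 : ℝ) ≤ n := Nat.cast_nonneg n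
    rcases le_total (gadRate γ ν p) (gadRate γ ν p') with hh | hh
    · exact ⟨p', hp', by push_cast; linarith⟩
    · exact ⟨p, hp, by push_cast; nlinarith [mul_le_mul_of_nonneg_left hh hn]⟩

theorem power_lower {γ ν : ℝ} (hγ : γ ∈ Set.Icc (0 : ℝ) 1) (hν : ν ∈ Set.Icc (0 : ℝ) 1)
    {p : ℝ} (hp : p ∈ Set.Icc (0 : ℝ) 1) (n : ℕ) :
    ∃ (m : ℕ) (q : Fin m → ℝ) (ρ : Fin m → Matrix (Fin n → Bool) (Fin n → Bool) ℂ),
      IsEnsemble q ρ ∧ holevoInfo (qubitPower n (gadMap γ ν)) q ρ = n * gadRate γ ν p := by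
  induction n with
  | zero =>
    have h : IsEns (fun _ : Fin 1 => (1 : ℝ))
        (fun _ => (1 : Matrix (Fin 0 → Bool) (Fin 0 → Bool) ℂ)) :=
      ⟨fun _ => zero_le_one, by simp, fun _ => ⟨PosSemidef.one, by simp⟩⟩
    exact ⟨1, _, _, h, (chi_power_zero hγ hν h).trans (by simp)⟩
  | succ n ih =>
    obtain ⟨m, q₂, ρ₂, h₂, e₂⟩ := ih
    obtain ⟨q₁, ρ₁, h₁, e₁⟩ := exists_chi_eq_rate hγ hν hp
    obtain ⟨h, he⟩ := chi_product hγ hν (power_channel hγ hν n) h₁ (q₂ := q₂) (ρ₂ := ρ₂) h₂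
    have h' := isEns_submatrix h (splitEq n).symm
    obtain ⟨m', q, ρ, g, e'⟩ := exists_fin h' (qubitPower (n + 1) (gadMap γ ν))
    refine ⟨m', q, ρ, g, ?_⟩
    rw [e', chi_power_succ hγ hν n h']
    simp only [submatrix_submatrix, Equiv.symm_comp_self, submatrix_id_id]
    rw [he, e₁]
    change _ + holevoInfo _ q₂ ρ₂ = _
    rw [e₂]; push_cast; ring

end Crest.Agent.R341
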