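import Crest.Agent.R341.Chan

/-!
Kraus representation, product ensembles and tensor powers of the amplitude-damping channel.
-/

set_option autoImplicit false
set_option linter.unusedSectionVars false

open Matrix Real Crest.Quantum Crest.MathPhysics.AmpDamp
open scoped ComplexOrder Kronecker

namespace Crest.Agent.R341

variable {d e : Type*} [Fintype d] [DecidableEq d] [Fintype e] [DecidableEq e]

theorem cp_of_kraus {κ : Type*} [Fintype κ] (K : κ → Matrix e d ℂ)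
    {Φ : Matrix d d ℂ → Matrix e e ℂ} (h : ∀ M, Φ M = ∑ k, K k * M * (K k)ᴴ) :
    IsCompletelyPositive Φ := by
  intro m M hM
  have : blockwise Φ M = ∑ k, ((1 : Matrix (Fin m) (Fin m) ℂ) ⊗ₖ K k) * M *
      ((1 : Matrix (Fin m) (Fin m) ℂ) ⊗ₖ K k)ᴴ := by
    ext ⟨a, i⟩ ⟨b, j⟩
    simp only [blockwise, of_apply, h, Matrix.sum_apply]
    refine Finset.sum_congr rfl fun k _ => ?_
    simp [mul_apply, Fintype.sum_prod_type, one_apply, block, apply_ite, ite_mul]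
  rw [this]
  exact posSemidef_sum _ fun k _ => hM.mul_mul_conjTranspose_same _

/-- Kraus operators of the channel -/
noncomputable def kraus (γ ν : ℝ) (k : Bool × Bool) : Matrix Bool Bool ℂ :=
  Matrix.of fun s t => ((match k, s, t with
    | (false, false), false, false => √(1 - ν)
    | (false, false), true, true => √(1 - ν) * √(1 - γ)
    | (false, true), false, false => √ν * √(1 - γ)
    | (false, true), true, true => √ν
    | (true, false), false, true => √γ * √(1 - ν)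
    | (true, true), true, false => √γ * √ν
    | _, _, _ => 0 : ℝ) : ℂ)

theorem coeff_eq {γ ν : ℝ} (hγ : γ ∈ Set.Icc (0 : ℝ) 1) (hν : ν ∈ Set.Icc (0 : ℝ) 1)
    (s t s' t' : Bool) :
    qubitCoeff (gadMap γ ν) s t s' t' = ∑ k, kraus γ ν k s s' * star (kraus γ ν k t t') := by
  have s1 : √(1 - ν) * √(1 - ν) = 1 - ν := mul_self_sqrt (by linarith [hν.2])
  have s2' : √ν * √ν = ν := mul_self_sqrt hν.1
  have s3 : √(1 - γ) * √(1 - γ) = 1 - γ := mul_self_sqrt (by linarith [hγ.2])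
  have s4 : √γ * √γ = γ := mul_self_sqrt hγ.1
  cases s <;> cases t <;> cases s' <;> cases t' <;>
    simp [qubitCoeff, gadMap, Matrix.single, kraus, Fintype.sum_prod_type] <;> norm_cast <;>
    first
      | linear_combination (-1) * s1 - (√ν * √ν) * s3 - (1 - γ) * s2'
      | linear_combination (-√γ * √γ) * s1 - (1 - ν) * s4
      | linear_combination (-√(1 - γ)) * s1 - √(1 - γ) * s2'
      | linear_combination (-√γ * √γ) * s2' - ν * s4
      | linear_combination (-1) * s2' - (√(1 - ν) * √(1 - ν)) * s3 - (1 - γ) * s1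

theorem gadMap_apply (γ ν : ℝ) (M : Matrix Bool Bool ℂ) (s t : Bool) :
    gadMap γ ν M s t = ∑ s', ∑ t', qubitCoeff (gadMap γ ν) s t s' t' * M s' t' := by
  cases s <;> cases t <;> simp [qubitCoeff, gadMap, Matrix.single] <;> ring

theorem coeff_trace (γ ν : ℝ) (s' t' : Bool) :
    ∑ s, qubitCoeff (gadMap γ ν) s s s' t' = if s' = t' then 1 else 0 := by
  cases s' <;> cases t' <;> simp [qubitCoeff, gadMap, Matrix.single] <;> ring

theorem gad_channel {γ ν : ℝ} (hγ : γ ∈ Set.Icc (0 : ℝ) 1) (hν : ν ∈ Set.Icc (0 : ℝ) 1) :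
    IsChannel (gadMap γ ν) := by
  refine ⟨⟨fun M N => ?_, fun c M => ?_⟩, cp_of_kraus (kraus γ ν) fun M => ?_, fun M => ?_⟩
  · ext s t
    cases s <;> cases t <;> simp [gadMap] <;> ring
  · ext s t
    cases s <;> cases t <;> simp [gadMap] <;> ring
  · ext s t
    rw [gadMap_apply]
    simp only [coeff_eq hγ hν, Matrix.sum_apply, mul_apply, conjTranspose_apply, Finset.sum_mul]
    rw [Finset.sum_comm]
    conv_rhs => rw [Finset.sum_comm]
    refine Finset.sum_congr rfl fun t' _ => ?_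
    rw [Finset.sum_comm]
    exact Finset.sum_congr rfl fun k _ => Finset.sum_congr rfl fun s' _ => by ring
  · simp [trace, gadMap]; ring

theorem power_channel {γ ν : ℝ} (hγ : γ ∈ Set.Icc (0 : ℝ) 1) (hν : ν ∈ Set.Icc (0 : ℝ) 1)
    (n : ℕ) : IsChannel (qubitPower n (gadMap γ ν)) := by
  refine ⟨⟨fun M N => ?_, fun c M => ?_⟩, cp_of_kraus (κ := Fin n → Bool × Bool)
    (fun κ => Matrix.of fun σ σ' => ∏ i, kraus γ ν (κ i) (σ i) (σ' i)) fun M => ?_, fun M => ?_⟩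
  · ext s t
    simp [qubitPower, mul_add, Finset.sum_add_distrib]
  · ext s t
    simp only [qubitPower, of_apply, Matrix.smul_apply, smul_eq_mul, Finset.mul_sum]
    exact Finset.sum_congr rfl fun _ _ => Finset.sum_congr rfl fun _ _ => by ring
  · ext σ τ
    simp only [qubitPower, of_apply, coeff_eq hγ hν, Matrix.sum_apply, mul_apply,
      conjTranspose_apply, Finset.prod_univ_sum, Fintype.piFinset_univ, Finset.sum_mul]
    rw [Finset.sum_comm]
    conv_rhs => rw [Finset.sum_comm]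
    refine Finset.sum_congr rfl fun t' _ => ?_
    rw [Finset.sum_comm]
    refine Finset.sum_congr rfl fun k _ => Finset.sum_congr rfl fun s' _ => ?_
    rw [Finset.prod_mul_distrib, star_prod]
    ring
  · simp only [trace, diag_apply, qubitPower, of_apply]
    rw [Finset.sum_comm]
    refine Finset.sum_congr rfl fun σ' _ => ?_
    rw [Finset.sum_comm]
    have : ∀ τ' : Fin n → Bool, ∑ σ : Fin n → Bool,
        (∏ i, qubitCoeff (gadMap γ ν) (σ i) (σ i) (σ' i) (τ' i)) * M σ' τ' =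
        (if σ' = τ' then 1 else 0) * M σ' τ' := by
      intro τ'
      rw [← Finset.sum_mul]
      congr 1
      have := Finset.prod_univ_sum (fun _ : Fin n => (Finset.univ : Finset Bool))
        (fun i s => qubitCoeff (gadMap γ ν) s s (σ' i) (τ' i))
      rw [Fintype.piFinset_univ] at this
      rw [← this]
      simp only [coeff_trace, Finset.prod_ite_zero, Finset.prod_const_one, Finset.mem_univ,
        forall_const, funext_iff]
    simp [this]

/-- splitting off the first qubit -/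
def splitEq (n : ℕ) : Bool × (Fin n → Bool) ≃ (Fin (n + 1) → Bool) :=
  Fin.consEquiv fun _ => Bool

theorem power_succ (Φ : Matrix Bool Bool ℂ → Matrix Bool Bool ℂ) (n : ℕ)
    (M : Matrix (Fin (n + 1) → Bool) (Fin (n + 1) → Bool) ℂ) :
    (qubitPower (n + 1) Φ M).submatrix (splitEq n) (splitEq n) =
      qubitTensor Φ (qubitPower n Φ) (M.submatrix (splitEq n) (splitEq n)) := by
  ext ⟨s, σ⟩ ⟨t, τ⟩
  simp only [submatrix_apply, qubitPower, qubitTensor, of_apply, block]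
  rw [← (splitEq n).sum_comp, Fintype.sum_prod_type]
  refine Finset.sum_congr rfl fun s' _ => ?_
  simp only [Finset.mul_sum]
  rw [Finset.sum_comm (s := (Finset.univ : Finset Bool))]
  refine Finset.sum_congr rfl fun σ' _ => ?_
  rw [← (splitEq n).sum_comp, Fintype.sum_prod_type]
  refine Finset.sum_congr rfl fun t' _ => Finset.sum_congr rfl fun τ' _ => ?_
  simp [splitEq, Fin.prod_univ_succ, Fin.consEquiv, mul_assoc]

theorem tensor_kronecker (γ ν : ℝ) {Ψ : Matrix d d ℂ → Matrix e e ℂ} (hΨ : IsChannel Ψ)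
    (ρ₁ : Matrix Bool Bool ℂ) (ρ₂ : Matrix d d ℂ) :
    qubitTensor (gadMap γ ν) Ψ (ρ₁ ⊗ₖ ρ₂) = gadMap γ ν ρ₁ ⊗ₖ Ψ ρ₂ := by
  have hb : ∀ s t, block (ρ₁ ⊗ₖ ρ₂) s t = ρ₁ s t • ρ₂ := fun s t => by
    ext i j; simp [block]
  ext ⟨s, i⟩ ⟨t, j⟩
  simp only [qubitTensor, of_apply, hb, hΨ.1.map_smul, kroneckerMap_apply, Matrix.smul_apply,
    smul_eq_mul]
  rw [gadMap_apply γ ν ρ₁]
  simp only [Finset.sum_mul, mul_assoc]

theorem density_kronecker {A : Matrix d d ℂ} {B : Matrix e e ℂ} (hA : IsDensity A)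
    (hB : IsDensity B) : IsDensity (A ⊗ₖ B) :=
  ⟨hA.1.kronecker hB.1, by rw [trace_kronecker, hA.2, hB.2, mul_one]⟩

theorem vn_kronecker_density {A : Matrix d d ℂ} {B : Matrix e e ℂ} (hA : IsDensity A)
    (hB : IsDensity B) : vnEntropy (A ⊗ₖ B) = vnEntropy A + vnEntropy B := by
  rw [vn_kronecker hA.1 hB.1, hA.2, hB.2]; simp

theorem chi_product {γ ν : ℝ} (hγ : γ ∈ Set.Icc (0 : ℝ) 1) (hν : ν ∈ Set.Icc (0 : ℝ) 1)
    {Ψ : Matrix d d ℂ → Matrix e e ℂ} (hΨ : IsChannel Ψ) {ι κ : Type*} [Fintype ι] [Fintype κ]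
    {q₁ : ι → ℝ} {ρ₁ : ι → Matrix Bool Bool ℂ} {q₂ : κ → ℝ} {ρ₂ : κ → Matrix d d ℂ}
    (h₁ : IsEns q₁ ρ₁) (h₂ : IsEns q₂ ρ₂) :
    IsEns (fun x : ι × κ => q₁ x.1 * q₂ x.2) (fun x => ρ₁ x.1 ⊗ₖ ρ₂ x.2) ∧
    chi (qubitTensor (gadMap γ ν) Ψ) (fun x : ι × κ => q₁ x.1 * q₂ x.2)
      (fun x => ρ₁ x.1 ⊗ₖ ρ₂ x.2) = chi (gadMap γ ν) q₁ ρ₁ + chi Ψ q₂ ρ₂ := by
  have hΦ := gad_channel hγ hν
  refine ⟨⟨fun x => mul_nonneg (h₁.1 _) (h₂.1 _), ?_,
    fun x => density_kronecker (h₁.2.2 _) (h₂.2.2 _)⟩, ?_⟩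
  · rw [Fintype.sum_prod_type, ← Finset.sum_mul_sum, h₁.2.1, h₂.2.1, mul_one]
  have d1 : IsEns q₁ fun a => gadMap γ ν (ρ₁ a) :=
    ⟨h₁.1, h₁.2.1, fun a => chan_density hΦ (h₁.2.2 a)⟩
  have d2 : IsEns q₂ fun a => Ψ (ρ₂ a) := ⟨h₂.1, h₂.2.1, fun a => chan_density hΨ (h₂.2.2 a)⟩
  unfold chi
  simp only [tensor_kronecker γ ν hΨ]
  have e1 : ∑ x : ι × κ, ((q₁ x.1 * q₂ x.2 : ℝ) : ℂ) • (gadMap γ ν (ρ₁ x.1) ⊗ₖ Ψ (ρ₂ x.2)) =
      (∑ a, (q₁ a : ℂ) • gadMap γ ν (ρ₁ a)) ⊗ₖ (∑ b, (q₂ b : ℂ) • Ψ (ρ₂ b)) := by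
    ext ⟨s, i⟩ ⟨t, j⟩
    simp only [Matrix.sum_apply, Matrix.smul_apply, kroneckerMap_apply, smul_eq_mul,
      Fintype.sum_prod_type, Finset.sum_mul_sum]
    refine Finset.sum_congr rfl fun a _ => Finset.sum_congr rfl fun b _ => ?_
    push_cast; ring
  have e2 : ∑ x : ι × κ, q₁ x.1 * q₂ x.2 * vnEntropy (gadMap γ ν (ρ₁ x.1) ⊗ₖ Ψ (ρ₂ x.2)) =
      (∑ a, q₁ a * vnEntropy (gadMap γ ν (ρ₁ a))) * (∑ b, q₂ b) +
        (∑ a, q₁ a) * ∑ b, q₂ b * vnEntropy (Ψ (ρ₂ b)) := by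
    simp only [Fintype.sum_prod_type, Finset.sum_mul_sum, ← Finset.sum_add_distrib]
    refine Finset.sum_congr rfl fun a _ => Finset.sum_congr rfl fun b _ => ?_
    rw [vn_kronecker_density (d1.2.2 a) (d2.2.2 b)]
    ring
  rw [e1, e2, vn_kronecker_density (avg_density d1) (avg_density d2), h₁.2.1, h₂.2.1]
  ring

/-- pure qubit state with excited population `p` and coherence of sign `σ` -/
noncomputable def pureQ (p σ : ℝ) : Matrix Bool Bool ℂ :=
  vecMulVec (fun s => ((if s then σ * √p else √(1 - p) : ℝ) : ℂ))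
    (star fun s => ((if s then σ * √p else √(1 - p) : ℝ) : ℂ))

theorem pureQ_entries {p σ : ℝ} (hp : p ∈ Set.Icc (0 : ℝ) 1) (hσ : σ ^ 2 = 1) :
    pureQ p σ false false = ((1 - p : ℝ) : ℂ) ∧ pureQ p σ true true = (p : ℂ) ∧
    pureQ p σ false true = ((σ * (√p * √(1 - p)) : ℝ) : ℂ) ∧
    pureQ p σ true false = ((σ * (√p * √(1 - p)) : ℝ) : ℂ) := by
  have s1 : √(1 - p) * √(1 - p) = 1 - p := mul_self_sqrt (by linarith [hp.2])
  have s2' : √p * √p = p := mul_self_sqrt hp.1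
  simp only [pureQ, vecMulVec_apply, Pi.star_apply, RCLike.star_def, Complex.conj_ofReal,
    ← Complex.ofReal_mul, Complex.ofReal_inj, if_true, Bool.false_eq_true, if_false]
  refine ⟨s1, ?_, by ring, by ring⟩
  linear_combination (√p * √p) * hσ + s2'

theorem pureQ_density {p σ : ℝ} (hp : p ∈ Set.Icc (0 : ℝ) 1) (hσ : σ ^ 2 = 1) :
    IsDensity (pureQ p σ) := by
  refine ⟨posSemidef_vecMulVec_self_star _, ?_⟩
  obtain ⟨h1, h2, -, -⟩ := pureQ_entries hp hσ
  simp [trace, h1, h2]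

theorem vn_gad_pureQ {γ ν : ℝ} (hγ : γ ∈ Set.Icc (0 : ℝ) 1) (hν : ν ∈ Set.Icc (0 : ℝ) 1)
    {p σ : ℝ} (hp : p ∈ Set.Icc (0 : ℝ) 1) (hσ : σ ^ 2 = 1) :
    vnEntropy (gadMap γ ν (pureQ p σ)) = s2 1 (gv γ ν p) := by
  have hd := chan_density (gad_channel hγ hν) (pureQ_density hp hσ)
  obtain ⟨h1, h2, h3, h4⟩ := pureQ_entries hp hσ
  have s1 : √(1 - p) * √(1 - p) = 1 - p := mul_self_sqrt (by linarith [hp.2])
  have s2' : √p * √p = p := mul_self_sqrt hp.1
  have s3 : √(1 - γ) * √(1 - γ) = 1 - γ := mul_self_sqrt (by linarith [hγ.2])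
  have hv0 : 0 ≤ gv γ ν p := by
    have := hγ.1; have := hν.1
    have : 0 ≤ 1 - γ := by linarith [hγ.2]
    have : 0 ≤ 1 - ν := by linarith [hν.2]
    unfold gv; positivity
  have := vn_two hd.1 (D := gv γ ν p) ?_ hv0 (by rw [hd.2]; simpa using gv_le hγ hp)
  · rw [this, hd.2, Complex.one_re]
  · simp only [gadMap, of_apply, h1, h2, h3, h4]
    simp only [and_self, if_true, Bool.true_eq_false, Bool.false_eq_true, and_false, false_and,
      if_false, ← Complex.ofReal_mul, ← Complex.ofReal_add, ← Complex.ofReal_sub,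
      Complex.ofReal_inj]
    have e : √(1 - γ) * (σ * (√p * √(1 - p))) * (√(1 - γ) * (σ * (√p * √(1 - p)))) =
        (1 - γ) * (p * (1 - p)) := by
      calc _ = (√(1 - γ) * √(1 - γ)) * σ ^ 2 * (√p * √p) * (√(1 - p) * √(1 - p)) := by ring
        _ = _ := by rw [s1, s2', s3, hσ]; ring
    rw [e, gv]; ring

/-- The rate is attained by a two-state ensemble. -/
theorem exists_chi_eq_rate {γ ν : ℝ} (hγ : γ ∈ Set.Icc (0 : ℝ) 1) (hν : ν ∈ Set.Icc (0 : ℝ) 1)
    {p : ℝ} (hp : p ∈ Set.Icc (0 : ℝ) 1) :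
    ∃ (q : Bool → ℝ) (ρ : Bool → Matrix Bool Bool ℂ), IsEns q ρ ∧
      chi (gadMap γ ν) q ρ = gadRate γ ν p := by
  have hσ : ∀ b : Bool, (if b then (1 : ℝ) else -1) ^ 2 = 1 := fun b => by cases b <;> simp
  refine ⟨fun _ => 1 / 2, fun b => pureQ p (if b then 1 else -1),
    ⟨fun _ => by norm_num, by simp, fun b => pureQ_density hp (hσ b)⟩, ?_⟩
  unfold chi
  simp only [vn_gad_pureQ hγ hν hp (hσ _)]
  set x := (1 - γ) * p + γ * ν with hx
  have hx0 : 0 ≤ x := by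
    have := hγ.1; have := hν.1; have := hp.1
    have : 0 ≤ 1 - γ := by linarith [hγ.2]
    positivity
  have hx1 : 0 ≤ 1 - x := by
    have h1 := mul_le_mul_of_nonneg_left hp.2 (show 0 ≤ 1 - γ by linarith [hγ.2])
    have h2 := mul_le_mul_of_nonneg_left hν.2 hγ.1
    linarith
  have e1 : ∑ b : Bool, ((1 / 2 : ℝ) : ℂ) • gadMap γ ν (pureQ p (if b then 1 else -1)) =
      diagonal fun s => ((if s then x else 1 - x : ℝ) : ℂ) := by
    obtain ⟨h1, h2, h3, h4⟩ := pureQ_entries hp (hσ true)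
    obtain ⟨g1, g2, g3, g4⟩ := pureQ_entries hp (hσ false)
    simp only [if_true, Bool.false_eq_true, if_false] at h1 h2 h3 h4 g1 g2 g3 g4
    ext s t
    cases s <;> cases t <;> simp [gadMap, h1, h2, h3, h4, g1, g2, g3, g4, hx] <;> ring
  have hl : ∀ s : Bool, 0 ≤ (if s then x else 1 - x) := fun s => by cases s <;> simp [hx0, hx1]
  rw [e1, vn_of_diag (U := 1) (PosSemidef.diagonal fun s => by
      simp only [Pi.zero_apply]; exact_mod_cast hl s) (by simp) (by simp) hl (by simp),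
    gadRate_eq, binEntropy_eq_negMulLog_add_negMulLog_one_sub]
  simp
  ring

end Crest.Agent.R341
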